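import Vale.Agent.P159.T1.S.H172.GoodF
import Vale.Agent.P159.T1.S.H802.AmpD

/-!
Row 11 of plan 118, without hypotheses.
-/

namespace Vale.Agent.P159.T1.S.H172

/-- **row 11**, unconditional -/
theorem stmtGoodS : StmtGoodS := goodS_fin H802.stmtSMain

end Vale.Agent.P159.T1.S.H172
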