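import Vale.Agent.P159.T1.D.H172.Prod
import Vale.Agent.P159.T1.H995.Rows

/-!
The covering of plan 118: a path from the upper boundary to the lower boundary or to a set `T` which
is contained in the strips and the tips.
-/

open Filter Topology

namespace Vale.Agent.P159.T1.S.H172

open Vale.Agent.P159.H353 Vale.Agent.P159.T1.D Vale.Agent.P159.T1.D.H172

/-- the first visit of `X` -/
lemma first_hit {U : Finset Z2} {N X : Set Z2} {a b : Z2} (ha : a ∈ U ∧ a ∈ N) (hb : b ∈ X)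
    (h : Relation.ReflTransGen (adj U N) a b) :
    ∃ f, f ∈ X ∧ (f ∈ U ∧ f ∈ N) ∧ (a ∈ U ∧ a ∈ N \ (X \ {f})) ∧
      Relation.ReflTransGen (adj U (N \ (X \ {f}))) a f := by
  induction h using Relation.ReflTransGen.head_induction_on with
  | refl => exact ⟨b, hb, ha, ⟨ha.1, ha.2, fun h => h.2 rfl⟩, Relation.ReflTransGen.refl⟩
  | @head a c h1 _ ih =>
    by_cases hX : a ∈ X
    · exact ⟨a, hX, ha, ⟨ha.1, ha.2, fun h => h.2 rfl⟩, Relation.ReflTransGen.refl⟩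
    · obtain ⟨f, h3, h4, h5, h6⟩ := ih h1.2.1
      have h7 : a ∈ U ∧ a ∈ N \ (X \ {f}) := ⟨ha.1, ha.2, fun h => hX h.1⟩
      exact ⟨f, h3, h4, h7, Relation.ReflTransGen.head ⟨h7, h5, h1.2.2⟩ h6⟩

lemma Jn_union {U : Finset Z2} {N A B C : Set Z2} (h : Jn U N A (B ∪ C)) :
    Jn U N A B ∨ Jn U N A C := by
  obtain ⟨a, ha, b, hb, h1, h2⟩ := h
  rcases hb with hb | hb
  · exact Or.inl ⟨a, ha, b, hb, h1, h2⟩
  · exact Or.inr ⟨a, ha, b, hb, h1, h2⟩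

/-- the cell of a column -/
lemma exists_cell {K : ℕ} {a : ℕ → ℕ} (ha : StrictMono a) {i : ℤ} (h0 : (a 0 : ℤ) ≤ i)
    (hK : i < a K) : ∃ k < K, (a k : ℤ) ≤ i ∧ i < a (k + 1) := by
  induction K with
  | zero => omega
  | succ K ih =>
    by_cases h : i < a K
    · obtain ⟨k, hk, h1⟩ := ih h
      exact ⟨k, by omega, h1⟩
    · exact ⟨K, by omega, not_lt.1 h, hK⟩

/-- a face of the strip outside the tip lies in a cell -/
lemma strip_cell {q n K : ℕ} {a : ℕ → ℕ} (hq : 1 ≤ q) (ha : StrictMono a) (h0 : a 0 ≤ n)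
    {f : Z2} (hf : f ∈ strip q 1 (a K)) (hn : f ∉ tip n) :
    ∃ k < K, f ∈ strip q (a k) (a (k + 1)) := by
  obtain ⟨⟨h1, h2⟩, h3, h4⟩ := hf
  have h5 : -1 - f.2 ≤ (q : ℤ) * (-1 - f.2) := by
    have : (1 : ℤ) ≤ q := by exact_mod_cast hq
    nlinarith
  have h6 : (a 0 : ℤ) ≤ -f.1 := by
    by_contra h
    apply hn
    have h7 : (a 0 : ℤ) ≤ n := by exact_mod_cast h0
    push_cast at h3
    exact ⟨by omega, by omega, by omega, by omega⟩
  obtain ⟨k, hk, h8, h9⟩ := exists_cell ha h6 h4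
  exact ⟨k, hk, ⟨h1, h2⟩, h8, h9⟩

/-- **the covering** -/
theorem coverT (hCover : StmtCover) {R r q n K : ℕ} {a : ℕ → ℕ} (hR : 2 ≤ R) (hq : 1 ≤ q)
    (hqn : q < n) (ha : StrictMono a) (h0 : a 0 ≤ n) (haR : a K ≤ R) (hnr : 2 * n ≤ r)
    (hnR : n ≤ R) {T : Set Z2} (hT : T ⊆ tgt q r n (a K)) {N : Set Z2}
    (hN : Jn (SB R r) N (upp (SB R r)) (low (SB R r) ∪ T)) :
    (∃ k < K, Arm (SB R r) (tgt q r n (a K)) (strip q (a k) (a (k + 1))) N) ∨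
      (∃ k < K, Arm (SB R r) (tgt q r n (a K)) (mir r ⁻¹' strip q (a k) (a (k + 1))) N) ∨
      (∃ f ∈ SB R r, (f ∈ tip n ∨ mir r f ∈ tip n) ∧ f ∈ N) ∨
      ¬ Jn (SB R r) Nᶜ (strip q 1 (a K)) (mir r ⁻¹' strip q 1 (a K)) := by
  rcases Jn_union hN with h | h
  · exact hCover R r q n K a hR hq hqn ha h0 haR hnr hnR N h
  · obtain ⟨u, hu, v, hv, h1, h2⟩ := h
    obtain ⟨f, h3, h4, h5, h6⟩ := first_hit h1 (hT hv) h2
    by_cases ht : f ∈ tip n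
    · exact Or.inr (Or.inr (Or.inl ⟨f, h4.1, Or.inl ht, h4.2⟩))
    by_cases ht' : mir r f ∈ tip n
    · exact Or.inr (Or.inr (Or.inl ⟨f, h4.1, Or.inr ht', h4.2⟩))
    have harm : ∀ Q : Set Z2, f ∈ Q → Arm (SB R r) (tgt q r n (a K)) Q N := by
      intro Q hQ
      refine Jn_mono ?_ (fun _ => id) (fun _ => id) ⟨u, hu, f, hQ, h5, h6⟩
      rintro g ⟨hg1, hg2⟩
      exact ⟨hg1, fun h => hg2 ⟨h.1, fun h' => h.2 (by
        rw [Set.mem_singleton_iff] at h'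
        rwa [h'])⟩⟩
    rcases h3 with ((h3 | h3) | h3) | h3
    · obtain ⟨k, hk, h7⟩ := strip_cell hq ha h0 h3 ht
      exact Or.inl ⟨k, hk, harm _ h7⟩
    · obtain ⟨k, hk, h7⟩ := strip_cell hq ha h0 h3 ht'
      exact Or.inr (Or.inl ⟨k, hk, harm _ h7⟩)
    · exact absurd h3 ht
    · exact absurd h3 ht'

end Vale.Agent.P159.T1.S.H172
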