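import Vale.Agent.P159.T1.S.Stmts
import Vale.Agent.P159.T1.S.H172.Cover
import Vale.Agent.P159.T1.D.H407.Arm1
import Vale.Agent.P159.T1.D.H172.Num

/-!
The product bound of plan 118.
-/

open Filter Topology

namespace Vale.Agent.P159.T1.S.H172

open Vale.Agent.P159 Vale.Agent.P159.H353 Vale.Agent.P159.T1.D Vale.Agent.P159.T1.D.H172

/-! ### the charges of the layer field -/

lemma ro_clp_off {Y V c1 : ℝ} {q n0 r : ℕ} (hq : 1 ≤ q) (hc : 0 < c1) (hr : 1 ≤ r) {f : Z2}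
    (hf : f ∉ strip q 1 (⌊2 * c1 * r⌋₊ + 2)) : ro Y V q (clp n0 (c1 * r)) f = 0 := by
  by_cases hcone : f ∈ cone q
  · obtain ⟨x, y⟩ := f
    have h1 := cone_neg' hq hcone
    have hy : y ≤ -2 := hcone.1
    have hrR : (0 : ℝ) < r := by exact_mod_cast hr
    have hX : 0 < c1 * r := mul_pos hc hrR
    have h2 : ((⌊2 * c1 * r⌋₊ + 2 : ℕ) : ℤ) ≤ -x := by
      by_contra h
      refine hf ⟨hcone, ?_, not_le.1 h⟩
      have : (1 : ℤ) ≤ q := by exact_mod_cast hq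
      push_cast
      exact this.trans h1
    have h3 : c1 * r ≤ |((x + 1 : ℤ) : ℝ)| := by
      have h4 := Nat.lt_floor_add_one (2 * c1 * (r : ℝ))
      have h5 : ((⌊2 * c1 * r⌋₊ + 2 : ℕ) : ℝ) ≤ -(x : ℝ) := by exact_mod_cast h2
      push_cast at h5 ⊢
      rw [abs_of_neg (by nlinarith)]
      nlinarith
    have hne : ((x + 1, y + 1) : Z2) ≠ 0 := fun h => by
      have h4 : y + 1 = 0 := congrArg Prod.snd h
      omega
    have h4 : Real.log (c1 * r) ≤ D.tau (x + 1, y + 1) :=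
      (Real.log_le_iff_le_exp hX).2 (h3.trans (abs_le_exp_tau hne))
    have h5 : D.tau (x + 1, y + 1) ≤ D.tau (x + 1, y) := tau_down (by omega)
    have h6 : D.tau (x + 1, y) ≤ D.tau (x, y) := tau_left (by omega)
    have key : ∀ τ, Real.log (c1 * r) ≤ τ →
        clp n0 (c1 * r) τ = max (Real.log n0) (Real.log (c1 * r)) := fun τ hτ => by
      unfold clp
      rw [min_eq_right hτ]
    refine ro_eq_zero_of_const ?_ ?_
    · rw [key _ (h4.trans h5), key _ (h4.trans (h5.trans h6))]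
    · rw [key _ h4, key _ (h4.trans h5)]
  · exact ro_of_notMem hcone

/-- the charges `ρ` and `ρ'` agree off the target -/
lemma rp_off {Y V κ x y s c1 : ℝ} {q n0 r : ℕ} {U : Finset Z2} (hq : 1 ≤ q) (hc : 0 < c1)
    (hr : 1 ≤ r) {f : Z2} (hf : f ∉ Tz q r c1 U) :
    rp Y V q n0 r κ x y s c1 f = D.rho Y V q n0 r κ x y s f := by
  unfold rp rz
  rw [ro_clp_off hq hc hr fun h => hf (Or.inl (Or.inl h)),
    ro_clp_off hq hc hr fun h => hf (Or.inl (Or.inr h)), add_zero, sub_zero]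

/-! ### the row S.AMP in its second form -/

open Classical in
/-- S.AMP: exploration of the `{h ≤ 0}` cluster of the upper lip with the last line kept, FKG, arms.
The cluster misses `T`; the charges `ρ`, `ρ1` agree off `T`. -/
def SMain : Prop :=
  ∀ (b M : ℝ) (R r : ℕ) (ρ ρ1 : Z2 → ℝ) (T : Set Z2) (ι : Type) (I : Finset ι)
    (Bad : ι → Set Z2 → Prop) (A B : ι → Set Z2) (Q : ι → Finset Z2) (ρA ρB : ι → Z2 → ℝ)
    (F : Finset Z2),
    0 < b → 0 ≤ M → 2 ≤ R → 1 ≤ r → (∀ f, 0 ≤ ρ f) → F ⊆ SB R r →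
    (∀ f, f ∉ T → ρ1 f = ρ f) →
    (∀ i ∈ I, ∀ f, 0 ≤ ρA i f ∧ 0 ≤ ρB i f ∧ ρA i f + ρB i f ≤ ρ f) →
    (∀ i ∈ I, ∀ f, f ∉ A i → ρA i f = 0) → (∀ i ∈ I, ∀ f, f ∉ B i → ρB i f = 0) →
    (∀ i ∈ I, ∀ N N' : Set Z2, N ⊆ N' → Bad i N → Bad i N') →
    (∀ i ∈ I, ∀ N : Set Z2, Bad i N → ¬ Jn (SB R r) (N ∪ Q i)ᶜ (A i) (B i)) →
    (∀ N : Set Z2, Jn (SB R r) N (upp (SB R r)) (low (SB R r) ∪ T) →
      (∃ i ∈ I, Bad i N) ∨ ∃ f ∈ F, f ∈ N) →
    (∀ N : Finset Z2, Expl (SB R r) T N →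
      Zn b (SB R r) N 1 ρ * Z b (SB R r \ nbF (SB R r) N) ≤
        M * (Real.exp (∑ f ∈ SB R r \ N, ρ1 f) * Zρ b (SB R r \ nbF (SB R r) N) ρ1) *
          Z b (SB R r \ N)) →
    Zρ b (SB R r) ρ *
        (∏ i ∈ I, max 0 (1 - Zρ b (SB R r \ Q i) (fun f => ρA i f - ρB i f) /
          Zρ b (SB R r \ Q i) (fun f => ρA i f + ρB i f))) *
        (∏ f ∈ F, E b (SB R r) fun h => if 1 ≤ h f then 1 else 0) ≤
      M * (Real.exp (∑ f ∈ SB R r, ρ1 f) * Zs b (SB R r) (-1) ρ1)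

open Classical in
/-- the inequality KEY for the explored set `N` -/
def KeyN (b M : ℝ) (R r : ℕ) (ρ ρ1 : Z2 → ℝ) (N : Finset Z2) : Prop :=
  Zn b (SB R r) N 1 ρ * Z b (SB R r \ nbF (SB R r) N) ≤
    M * (Real.exp (∑ f ∈ SB R r \ N, ρ1 f) * Zρ b (SB R r \ nbF (SB R r) N) ρ1) *
      Z b (SB R r \ N)

/-- S.AMP with lower bounds for the factors -/
theorem smain_rows (hMain : SMain) {b M : ℝ} {R r : ℕ} {ρ ρ1 : Z2 → ℝ} {T : Set Z2} (hb : 0 < b)
    (hM : 0 ≤ M) (hR : 2 ≤ R)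
    (hr : 1 ≤ r) (hρ : ∀ f, 0 ≤ ρ f) (hT : ∀ f, f ∉ T → ρ1 f = ρ f) {ι : Type} (I : Finset ι)
    (P : ι → Set Z2 → Prop)
    (w : ι → ℝ) (hw : ∀ i ∈ I, 0 ≤ w i) (hrow : ∀ i ∈ I, Row b R r ρ (P i) (w i))
    (F : Finset Z2) (hF : F ⊆ SB R r)
    (hE : ∀ f ∈ F, 0 ≤ E b (SB R r) fun h => if 1 ≤ h f then 1 else 0)
    (hcov : ∀ N : Set Z2, Jn (SB R r) N (upp (SB R r)) (low (SB R r) ∪ T) →
      (∃ i ∈ I, P i N) ∨ ∃ f ∈ F, f ∈ N)
    (hkey : ∀ N : Finset Z2, Expl (SB R r) T N → KeyN b M R r ρ ρ1 N) :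
    Zρ b (SB R r) ρ * (∏ i ∈ I, w i) *
        (∏ f ∈ F, E b (SB R r) fun h => if 1 ≤ h f then 1 else 0) ≤
      M * (Real.exp (∑ f ∈ SB R r, ρ1 f) * Zs b (SB R r) (-1) ρ1) := by
  classical
  have hrow' : ∀ i, ∃ (A B : Set Z2) (Q : Finset Z2) (ρA ρB : Z2 → ℝ), i ∈ I →
      (∀ f, 0 ≤ ρA f ∧ 0 ≤ ρB f ∧ ρA f + ρB f ≤ ρ f) ∧
      (∀ f, f ∉ A → ρA f = 0) ∧ (∀ f, f ∉ B → ρB f = 0) ∧
      (∀ N N' : Set Z2, N ⊆ N' → P i N → P i N') ∧
      (∀ N : Set Z2, P i N → ¬ Jn (SB R r) (N ∪ Q)ᶜ A B) ∧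
      w i ≤ 1 - Zρ b (SB R r \ Q) (fun f => ρA f - ρB f) /
        Zρ b (SB R r \ Q) (fun f => ρA f + ρB f) := by
    intro i
    by_cases hi : i ∈ I
    · obtain ⟨A, B, Q, ρA, ρB, h⟩ := hrow i hi
      exact ⟨A, B, Q, ρA, ρB, fun _ => h⟩
    · exact ⟨∅, ∅, ∅, 0, 0, fun h => absurd h hi⟩
  choose A B Q ρA ρB h using hrow'
  refine le_trans ?_ (hMain b M R r ρ ρ1 T ι I P A B Q ρA ρB F hb hM hR hr hρ hF hT
    (fun i hi => (h i hi).1) (fun i hi => (h i hi).2.1) (fun i hi => (h i hi).2.2.1)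
    (fun i hi => (h i hi).2.2.2.1) (fun i hi => (h i hi).2.2.2.2.1) hcov hkey)
  have h1 : 0 ≤ ∏ f ∈ F, E b (SB R r) fun h => if 1 ≤ h f then (1 : ℝ) else 0 :=
    Finset.prod_nonneg hE
  refine mul_le_mul_of_nonneg_right ?_ h1
  refine mul_le_mul_of_nonneg_left ?_ (H910.Zρ_pos hb.le _ _).le
  exact Finset.prod_le_prod hw fun i hi => le_max_of_le_right (h i hi).2.2.2.2.2

/-- **all events** -/
theorem all_rowsS (hMain : SMain) (hCover : StmtCover) (hSep : StmtSep) (hSepM : StmtSepM)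
    (hPos : StmtPos) {b M V κ x y s x' t θ : ℝ} {R q n0 n r K : ℕ} {ρ1 : Z2 → ℝ} {T : Set Z2}
    (hb : 0 < b) (hM0 : 0 ≤ M) (hY : 0 < helicity b)
    (hV : 0 < V) (hq : 1 ≤ q) (hκ : 0 ≤ κ) (hR : 2 ≤ R) (hr : 1 ≤ r) (hqn : q < n)
    (hMR : 2 * cell q n K ≤ R) (hnr : 2 * n ≤ r) (ht : t ≤ 1) (hθ : θ ≤ 1)
    (hE : ∀ f ∈ tips R r n, 0 ≤ E b (SB R r) fun h => if 1 ≤ h f then 1 else 0)
    (hArm : ∀ k < K, ∃ ρA ρB : Z2 → ℝ, (∀ f, 0 ≤ ρA f ∧ 0 ≤ ρB f ∧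
          ρA f + ρB f ≤ ro (helicity b) V q (clp n0 ((r : ℝ) / 4)) f) ∧
        (∀ f, f ∉ strip q 1 (cell q n k) → ρA f = 0) ∧
        (∀ f, f ∉ strip q (cell q n k + cell q n k / q) (2 * cell q n k) → ρB f = 0) ∧
        ∀ Q : Finset Z2,
          (∀ f, f ∈ Q ↔ f ∈ strip q (cell q n k) (cell q n k + cell q n k / q)) →
        Zρ b (SB R r \ Q) (fun f => ρA f - ρB f) ≤
          t * Zρ b (SB R r \ Q) (fun f => ρA f + ρB f))
    (hb1 : ∀ f, f ∉ strip q 1 (cell q n K) → bump r κ x y s f = 0)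
    (hx' : x' * r ≤ cell q n K)
    (hMid : ∀ Q : Finset Z2, (∀ f ∈ Q, x' * (r : ℝ) ≤ -(f.1 : ℝ)) →
      Zρ b (SB R r \ Q) (fun f => bump r κ x y s f - bump r κ x y s (mir r f)) ≤
        θ * Zρ b (SB R r \ Q) (fun f => bump r κ x y s f + bump r κ x y s (mir r f)))
    (hT : T ⊆ tgt q r n (2 * cell q n K) ∪ low (SB R r))
    (hρ1 : ∀ f, f ∉ T → ρ1 f = D.rho (helicity b) V q n0 r κ x y s f)
    (hkey : ∀ N : Finset Z2, Expl (SB R r) T N →
      KeyN b M R r (D.rho (helicity b) V q n0 r κ x y s) ρ1 N) :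
    Zρ b (SB R r) (D.rho (helicity b) V q n0 r κ x y s) *
        ((1 - θ) ^ 3 * (1 - t) ^ (2 * K)) *
        (∏ f ∈ tips R r n, E b (SB R r) fun h => if 1 ≤ h f then 1 else 0) ≤
      M * (Real.exp (∑ f ∈ SB R r, ρ1 f) * Zs b (SB R r) (-1) ρ1) := by
  classical
  have hge := fun k => cell_ge q n k
  have hmono := cell_strictMono hq hqn.le
  -- the rows of the left side
  have hleft : ∀ k < K + 1, Row b R r (D.rho (helicity b) V q n0 r κ x y s)
      (fun N => Arm (SB R r) (tgt q r n (2 * cell q n K))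
      (strip q (cols q n K k) (cols q n K (k + 1))) N) (if k < K then 1 - t else 1 - θ) := by
    intro k hk
    by_cases h : k < K
    · rw [if_pos h, cols_of_le h.le, cols_of_le (Nat.succ_le_of_lt h), cell_succ]
      have h1 : cell q n k ≤ cell q n K := hmono.monotone h.le
      exact row_cell hSep hPos hb hY hV hq hκ hR (by omega) (hqn.le.trans (hge k)) (hge k)
        (by omega) hMR hnr (hArm k h)
    · have h1 : k = K := by omega
      subst h1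
      rw [if_neg h, cols_of_le (le_refl _), cols_last]
      have h2 := hge k
      exact row_big hSepM hPos hb hY hV hq hκ hR hqn (hge k) (by omega) hMR hnr hb1 hx' hMid
  have key := smain_rows hMain hb hM0 hR hr (fun f => rho_nonneg hPos hY hV hq hκ f) hρ1
    (Finset.insertNone ((Finset.univ : Finset Bool) ×ˢ Finset.range (K + 1)))
    (evt R r q n K) (fac K t θ) ?_ ?_ (tips R r n) (fun f hf => (mem_tips.1 hf).1) hE ?_ hkey
  · rwa [prod_fac] at key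
  · rintro (_ | ⟨c, k⟩) _
    · exact sub_nonneg.2 hθ
    · change 0 ≤ if k < K then 1 - t else 1 - θ
      split_ifs
      · exact sub_nonneg.2 ht
      · exact sub_nonneg.2 hθ
  · rintro (_ | ⟨c, k⟩) hi
    · refine row_mid hPos hb hY hV hq hκ (fun f hf => hb1 f fun h => hf ?_) hMid
      exact strip_mono (le_refl _) (by omega) h
    · rw [Finset.some_mem_insertNone, Finset.mem_product, Finset.mem_range] at hi
      have h1 := hleft k hi.2
      cases c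
      · exact h1
      · refine (h1.mir fun f => rho_mir _ _ _ _ _ _ _ _ _ f).congr (fun N hN => ?_)
          fun N N' hN h => Arm_mono hN h
        exact Arm_mir (mir_tgt q r n _) hN
  · intro N hN
    have hT' : tgt q r n (2 * cell q n K) ⊆ tgt q r n (cols q n K (K + 1)) := by
      rw [cols_last]
    have h0 : Jn (SB R r) N (upp (SB R r)) (low (SB R r) ∪ tgt q r n (2 * cell q n K)) := by
      refine Jn_mono (fun _ => id) (fun _ => id) (fun f hf => ?_) hN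
      rcases hf with hf | hf
      · exact Or.inl hf
      · exact (hT hf).symm
    have h1 := coverT hCover (K := K + 1) (a := cols q n K) hR hq hqn
      (cols_strictMono hq hqn.le K)
      (by rw [cols_of_le (Nat.zero_le _), cell_zero]) (by rw [cols_last]; exact hMR) hnr
      (by have := hge K; omega) hT' h0
    rw [cols_last] at h1
    rcases h1 with ⟨k, hk, h⟩ | ⟨k, hk, h⟩ | ⟨f, hf, h2, h3⟩ | h
    · left
      refine ⟨some (false, k), ?_, h⟩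
      rw [Finset.some_mem_insertNone, Finset.mem_product, Finset.mem_range]
      exact ⟨Finset.mem_univ _, hk⟩
    · left
      refine ⟨some (true, k), ?_, h⟩
      rw [Finset.some_mem_insertNone, Finset.mem_product, Finset.mem_range]
      exact ⟨Finset.mem_univ _, hk⟩
    · right
      exact ⟨f, mem_tips.2 ⟨hf, h2⟩, h3⟩
    · left
      exact ⟨none, Finset.none_mem_insertNone, h⟩

end Vale.Agent.P159.T1.S.H172
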