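import Vale.Agent.P159.T1.S.H172.GoodS
import Vale.Agent.P159.T1.D.H172.Fin

/-!
Row 11 of plan 118 from S.AMP alone.
-/

namespace Vale.Agent.P159.T1.S.H172

open Vale.Agent.P159 Vale.Agent.P159.H353 Vale.Agent.P159.T1 Vale.Agent.P159.T1.D

/-- **row 11** -/
theorem goodS_fin (hMain : SMain) : StmtGoodS :=
  goodS hMain H995.stmtCover H995.stmtSep H995.stmtSepM D.H85.stmtTip D.stmtPos
    D.H172.arm D.H172.mid fun b hb =>
      ⟨H170.bCrit_pos.trans_le hb, lt_of_lt_of_le (by positivity) (D.H172.helicity_ge hb)⟩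

end Vale.Agent.P159.T1.S.H172
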