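import Vale.Agent.P159.T1.S.H172.Good

/-!
Row 11 of plan 118: the product bound with the last line kept, all quantifiers.
-/

open Filter Topology

namespace Vale.Agent.P159.T1.S.H172

open Vale.Agent.P159 Vale.Agent.P159.H353 Vale.Agent.P159.T1.D Vale.Agent.P159.T1.D.H172

/-- S.GOOD: if KEY holds for all explored sets with the constant `M`, then the sum of the sector
`(0|1)` with the charges `ρ'` is at least `r ^ (-ε) / M` times the sum of the sector `(0|0)` with the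
charges `ρ` -/
def StmtGoodS : Prop :=
  ∀ (b V κ ε : ℝ), bCrit ≤ b → 0 < V → 1 < 2 * V ^ 2 / (Real.pi * helicity b) → 0 < κ → 0 < ε →
    ∃ q0 : ℕ, ∀ q ≥ q0, ∃ (x y s c0 : ℝ) (n1 A0 : ℕ), 0 < c0 ∧ ∀ c1 : ℝ, 0 < c1 → c1 ≤ c0 →
      Par q κ x y s c1 ∧ c1 ≤ 1 / 16 ∧
      ∀ n0 ≥ n1, ∃ (c : ℝ) (r0 : ℕ), 0 < c ∧ ∀ (A r : ℕ), A0 ≤ A → r0 ≤ r → ∀ M : ℝ, 0 ≤ M →
        (∀ N : Finset Z2, Expl (SB (A * r) r) (Tz q r c1 (SB (A * r) r)) N →
          KeyN b M (A * r) r (D.rho (helicity b) V q n0 r κ x y s)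
            (rp (helicity b) V q n0 r κ x y s c1) N) →
        Zρ b (SB (A * r) r) (D.rho (helicity b) V q n0 r κ x y s) * (c * (r : ℝ) ^ (-ε)) ≤
          M * (Real.exp (∑ f ∈ SB (A * r) r, rp (helicity b) V q n0 r κ x y s c1 f) *
            Zs b (SB (A * r) r) (-1) (rp (helicity b) V q n0 r κ x y s c1))

/-- the target of plan 118 is contained in the target of the arms -/
lemma Tz_sub {q r n K : ℕ} {c1 : ℝ} {U : Finset Z2}
    (h : ⌊2 * c1 * (r : ℝ)⌋₊ + 2 ≤ 2 * cell q n K) :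
    Tz q r c1 U ⊆ tgt q r n (2 * cell q n K) ∪ low U := by
  rintro f ((hf | hf) | hf)
  · exact Or.inl (Or.inl (Or.inl (Or.inl (strip_mono (le_refl _) h hf))))
  · exact Or.inl (Or.inl (Or.inl (Or.inr (strip_mono (le_refl _) h hf))))
  · exact Or.inr hf

/-- the bound at one distance -/
theorem goodS_r (hMain : SMain) (hCover : StmtCover) (hSep : StmtSep)
    (hSepM : StmtSepM) (hPos : StmtPos) {b M ε V κ c s t θ p c1 : ℝ} {q n0 A r : ℕ}
    (hb : 0 < b) (hM : 0 ≤ M) (hY : 0 < helicity b) (hV : 0 < V) (hκ : 0 ≤ κ) (hq : 1 ≤ q)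
    (hc : 0 < c) (hc12 : c ≤ 1 / 12) (hc1 : 0 < c1) (hcc : c1 ≤ c / 16)
    (ht0 : 0 ≤ t) (ht : t ≤ 1 / 2) (htq : t * q ≤ ε / 12)
    (hs0 : 0 < s) (hsc : s ≤ c / 32) (hqs : q * s = c / 32) (hθ : θ < 1) (hp0 : 0 < p)
    (hp1 : p ≤ 1)
    (hp : ∀ (U : Finset Z2) (f : Z2), f ∈ U → p ≤ E b U fun h => if 1 ≤ h f then 1 else 0)
    (hqn : q < 3 * n0) (hA : 1 ≤ A) (hr : 1 ≤ r) (hnr : 2 * (3 * n0) ≤ r)
    (hnc : ((3 * n0 : ℕ) : ℝ) ≤ c * r) (hsr : 1 ≤ s * r) (hcr4 : 4 ≤ c * r)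
    (hArm : ∀ a : ℕ, 3 * n0 ≤ a → (a : ℝ) ≤ c * r →
      ∃ ρA ρB : Z2 → ℝ, (∀ f, 0 ≤ ρA f ∧ 0 ≤ ρB f ∧
          ρA f + ρB f ≤ ro (helicity b) V q (clp n0 ((r : ℝ) / 4)) f) ∧
        (∀ f, f ∉ strip q 1 a → ρA f = 0) ∧
        (∀ f, f ∉ strip q (a + a / q) (2 * a) → ρB f = 0) ∧
        ∀ Q : Finset Z2, (∀ f, f ∈ Q ↔ f ∈ strip q a (a + a / q)) →
        Zρ b (SB (A * r) r \ Q) (fun f => ρA f - ρB f) ≤
          t * Zρ b (SB (A * r) r \ Q) (fun f => ρA f + ρB f))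
    (hMid : ∀ Q : Finset Z2, (∀ f ∈ Q, c / 2 * (r : ℝ) ≤ -(f.1 : ℝ)) →
      Zρ b (SB (A * r) r \ Q)
          (fun f => bump r κ (c / 4) (2 * s) s f - bump r κ (c / 4) (2 * s) s (mir r f)) ≤
        θ * Zρ b (SB (A * r) r \ Q)
          (fun f => bump r κ (c / 4) (2 * s) s f + bump r κ (c / 4) (2 * s) s (mir r f)))
    (hkey : ∀ N : Finset Z2, Expl (SB (A * r) r) (Tz q r c1 (SB (A * r) r)) N →
      KeyN b M (A * r) r (D.rho (helicity b) V q n0 r κ (c / 4) (2 * s) s)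
        (rp (helicity b) V q n0 r κ (c / 4) (2 * s) s c1) N) :
    Zρ b (SB (A * r) r) (D.rho (helicity b) V q n0 r κ (c / 4) (2 * s) s) *
        ((1 - θ) ^ 3 * p ^ (2 * (2 * (3 * n0)) ^ 2) * (r : ℝ) ^ (-ε)) ≤
      M * (Real.exp (∑ f ∈ SB (A * r) r, rp (helicity b) V q n0 r κ (c / 4) (2 * s) s c1 f) *
        Zs b (SB (A * r) r) (-1) (rp (helicity b) V q n0 r κ (c / 4) (2 * s) s c1)) := by
  have hrR : (0 : ℝ) < r := by exact_mod_cast hr
  have hrR1 : (1 : ℝ) ≤ r := by exact_mod_cast hr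
  have hqR1 : (1 : ℝ) ≤ q := by exact_mod_cast hq
  have hAr : r ≤ A * r := Nat.le_mul_of_pos_left r hA
  have hlog : 0 ≤ Real.log r := Real.log_nonneg hrR1
  have hcr : c * r ≤ r := mul_le_of_le_one_left hrR.le (by linarith)
  have hcr2 : 2 * (c * r) ≤ r := by nlinarith
  have hsr2 : s * r ≤ c / 32 * r := mul_le_mul_of_nonneg_right hsc hrR.le
  have hcr0 : 0 < c * r := mul_pos hc hrR
  -- the cells
  obtain ⟨K, hK1, hK2⟩ := exists_last hq hqn.le hnc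
  have hK3 := hK1 K (le_refl K)
  have hMR : 2 * cell q (3 * n0) K ≤ A * r := by
    have h1 : (2 * cell q (3 * n0) K : ℝ) ≤ r := by linarith
    have h2 : 2 * cell q (3 * n0) K ≤ r := by exact_mod_cast h1
    exact h2.trans hAr
  have hcount : (K : ℝ) ≤ 3 * q * Real.log r := by
    have h1 := cell_count hq hqn.le (hK3.trans hcr)
    have h2 : (2 * (q : ℝ) + 1) * Real.log r ≤ 3 * q * Real.log r :=
      mul_le_mul_of_nonneg_right (by linarith) hlog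
    exact h1.trans h2
  have hbump : ∀ f, f ∉ strip q 1 (cell q (3 * n0) K) →
      bump r κ (c / 4) (2 * s) s f = 0 := by
    intro f hf
    refine bump_support hr hs0 ?_ (by linarith) ?_ ?_ hf
    · calc (q : ℝ) * (2 * s + s) = 3 * (q * s) := by ring
        _ < c / 4 - s := by
          rw [hqs]
          linarith
    · linarith
    · calc (c / 4 + s) * (r : ℝ) = c * r / 4 + s * r := by ring
        _ ≤ cell q (3 * n0) K := by linarith
  have hT : Tz q r c1 (SB (A * r) r) ⊆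
      tgt q r (3 * n0) (2 * cell q (3 * n0) K) ∪ low (SB (A * r) r) := by
    apply Tz_sub
    have h1 : 0 ≤ 2 * c1 * (r : ℝ) := by positivity
    have h2 := Nat.floor_le h1
    have h3 : c1 * r ≤ c / 16 * r := mul_le_mul_of_nonneg_right hcc hrR.le
    have h4 : ((⌊2 * c1 * (r : ℝ)⌋₊ + 2 : ℕ) : ℝ) ≤ ((2 * cell q (3 * n0) K : ℕ) : ℝ) := by
      push_cast
      linarith
    exact_mod_cast h4
  have hmain := all_rowsS hMain hCover hSep hSepM hPos (x' := c / 2) (θ := θ)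
    (ρ1 := rp (helicity b) V q n0 r κ (c / 4) (2 * s) s c1)
    (T := Tz q r c1 (SB (A * r) r)) hb hM hY hV hq
    hκ (by omega) hr hqn hMR hnr (by linarith) hθ.le
    (fun f hf => hp0.le.trans (hp _ _ (mem_tips.1 hf).1))
    (fun k hk => hArm (cell q (3 * n0) k) (cell_ge q _ k) (hK1 k hk.le)) hbump
    (by linarith) hMid hT (fun f hf => rp_off hq hc1 hr hf) hkey
  refine le_trans ?_ hmain
  have hθ3 : 0 ≤ (1 - θ) ^ 3 := pow_nonneg (by linarith) 3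
  have hPP := prod_tips (b := b) (R := A * r) (r := r) (n := 3 * n0) hp0 hp1 hp
  have hP0 : 0 ≤ p ^ (2 * (2 * (3 * n0)) ^ 2) := pow_nonneg hp0.le _
  have hpow : (r : ℝ) ^ (-ε) ≤ (1 - t) ^ (2 * K) := by
    have h1 : (Real.exp (-(2 * t))) ^ (2 * K) ≤ (1 - t) ^ (2 * K) :=
      pow_le_pow_left₀ (Real.exp_pos _).le (exp_le_one_sub ht0 ht) _
    refine le_trans ?_ h1
    rw [← Real.exp_nat_mul, Real.rpow_def_of_pos hrR]
    apply Real.exp_le_exp.2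
    have h3 : (K : ℝ) * t ≤ 3 * (t * q) * Real.log r := by
      calc (K : ℝ) * t ≤ 3 * q * Real.log r * t := mul_le_mul_of_nonneg_right hcount ht0
        _ = 3 * (t * q) * Real.log r := by ring
    have h4 : 3 * (t * q) * Real.log r ≤ 3 * (ε / 12) * Real.log r :=
      mul_le_mul_of_nonneg_right (by linarith) hlog
    push_cast
    linarith
  have hZZ : 0 ≤ Zρ b (SB (A * r) r) (D.rho (helicity b) V q n0 r κ (c / 4) (2 * s) s) :=
    (H910.Zρ_pos hb.le _ _).le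
  calc Zρ b (SB (A * r) r) (D.rho (helicity b) V q n0 r κ (c / 4) (2 * s) s) *
        ((1 - θ) ^ 3 * p ^ (2 * (2 * (3 * n0)) ^ 2) * (r : ℝ) ^ (-ε))
      = Zρ b (SB (A * r) r) (D.rho (helicity b) V q n0 r κ (c / 4) (2 * s) s) *
        (((1 - θ) ^ 3 * (r : ℝ) ^ (-ε)) * p ^ (2 * (2 * (3 * n0)) ^ 2)) := by ring
    _ ≤ Zρ b (SB (A * r) r) (D.rho (helicity b) V q n0 r κ (c / 4) (2 * s) s) *
        (((1 - θ) ^ 3 * (1 - t) ^ (2 * K)) *
          ∏ f ∈ tips (A * r) r (3 * n0), E b (SB (A * r) r) fun h => if 1 ≤ h f then 1 else 0) := by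
        refine mul_le_mul_of_nonneg_left ?_ hZZ
        refine mul_le_mul (mul_le_mul_of_nonneg_left hpow hθ3) hPP hP0 ?_
        exact mul_nonneg hθ3 (pow_nonneg (by linarith) _)
    _ = _ := by ring

/-- **the product bound from the rows** -/
theorem goodS (hMain : SMain) (hCover : StmtCover) (hSep : StmtSep)
    (hSepM : StmtSepM) (hTip : StmtTip) (hPos : StmtPos)
    (hArm : StmtArm) (hMid : StmtMid)
    (hY0 : ∀ b, bCrit ≤ b → 0 < b ∧ 0 < helicity b) : StmtGoodS := by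
  intro b V κ ε hb hV hp hκ hε
  obtain ⟨hb0, hY⟩ := hY0 b hb
  have hpi := Real.pi_pos
  obtain ⟨C, q0, hArm1⟩ := hArm b V hb hV
  obtain ⟨q1, hq1⟩ := eventually_atTop.1 (choiceC (max C 0) hp
    (by positivity : (0 : ℝ) < ε / 12))
  refine ⟨max (max q0 q1) 1, fun q hqq => ?_⟩
  have hq0 : q0 ≤ q := ((le_max_left _ _).trans (le_max_left _ _)).trans hqq
  have hq : 1 ≤ q := (le_max_right _ _).trans hqq
  obtain ⟨hq2, hq3⟩ := hq1 q (((le_max_right _ _).trans (le_max_left _ _)).trans hqq)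
  have hqR : (0 : ℝ) < q := by exact_mod_cast hq
  have hqR1 : (1 : ℝ) ≤ q := by exact_mod_cast hq
  clear hq1 hqq
  obtain ⟨n1, A1, c, hc, hc12, hArm2⟩ := hArm1 q hq0
  have hqp : 0 < (q : ℝ) ^ (-(2 * V ^ 2 / (Real.pi * helicity b))) := Real.rpow_pos_of_pos hqR _
  have ht0 : 0 ≤ max C 0 * (q : ℝ) ^ (-(2 * V ^ 2 / (Real.pi * helicity b))) :=
    mul_nonneg (le_max_right _ _) hqp.le
  -- the bumps
  obtain ⟨s, hs0, hqs⟩ : ∃ s : ℝ, 0 < s ∧ q * s = c / 32 :=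
    ⟨c / (32 * q), by positivity, by field_simp⟩
  have hsc : s ≤ c / 32 := by
    rw [← hqs]
    exact le_mul_of_one_le_left hs0.le hqR1
  have e1 : s < 2 * s := by linarith
  have e2 : s + c / 4 < 1 / 4 := by linarith
  have e3 : (q : ℝ) * (2 * s + s) < c / 4 - s := by
    calc (q : ℝ) * (2 * s + s) = 3 * (q * s) := by ring
      _ < c / 4 - s := by
        rw [hqs]
        linarith
  have e4 : s < c / 4 := by linarith
  have e5 : c / 4 + s < c / 2 := by linarith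
  obtain ⟨θ, nM, A2, hθ, hM1⟩ := hMid b κ (c / 4) (2 * s) s (c / 2) hb hκ hs0 e1 e4 e5
  obtain ⟨p, hp0, hp1⟩ := hTip b hb0
  have hp'0 : 0 < min p 1 := lt_min hp0 one_pos
  have hθ3 : 0 < (1 - θ) ^ 3 := pow_pos (by linarith) 3
  refine ⟨c / 4, 2 * s, s, c / 16, n1 + (q + 1), A1 + A2 + 1, by positivity,
    fun c1 hc1 hcc => ⟨⟨hq, hκ, hs0, e1, e2, e3, hc1, by linarith⟩, by linarith,
      fun n0 hn0 => ?_⟩⟩
  obtain ⟨r1, hr1⟩ := exists_nat_gt (((3 * n0 : ℕ) : ℝ) / c)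
  obtain ⟨r2, hr2⟩ := exists_nat_gt (1 / s)
  obtain ⟨r3, hr3⟩ := exists_nat_gt (4 / c)
  refine ⟨(1 - θ) ^ 3 * (min p 1) ^ (2 * (2 * (3 * n0)) ^ 2),
    nM + 2 * (3 * n0) + r1 + r2 + r3, mul_pos hθ3 (pow_pos hp'0 _),
    fun A r hA hr M hM hkey => ?_⟩
  have hr0 : 1 ≤ r := by omega
  refine goodS_r hMain hCover hSep hSepM hPos hb0 hM hY hV hκ.le hq hc hc12 hc1 hcc ht0 hq2 hq3
    hs0 hsc
    hqs hθ hp'0 (min_le_right _ _) (fun U f hf => (min_le_left _ _).trans (hp1 U f hf))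
    (by omega) (by omega) hr0 (by omega) ?_ ?_ ?_ ?_ (hM1 A r (by omega) (by omega)) hkey
  · have h2 : r1 ≤ r := by omega
    have h1 : ((3 * n0 : ℕ) : ℝ) / c < r := hr1.trans_le (by exact_mod_cast h2)
    rw [div_lt_iff₀ hc] at h1
    linarith
  · have h2 : r2 ≤ r := by omega
    have h1 : 1 / s < r := hr2.trans_le (by exact_mod_cast h2)
    rw [div_lt_iff₀ hs0] at h1
    linarith
  · have h2 : r3 ≤ r := by omega
    have h1 : 4 / c < r := hr3.trans_le (by exact_mod_cast h2)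
    rw [div_lt_iff₀ hc] at h1
    linarith
  · intro a ha1 ha2
    obtain ⟨ρA, ρB, h2, h3, h4, h5⟩ := hArm2 n0 (by omega) A r a (by omega) ha1 ha2
    refine ⟨ρA, ρB, h2, h3, h4, fun Q hQ => (h5 Q hQ).trans ?_⟩
    refine mul_le_mul_of_nonneg_right ?_ (H910.Zρ_pos hb0.le _ _).le
    exact mul_le_mul_of_nonneg_right (le_max_left _ _) hqp.le

end Vale.Agent.P159.T1.S.H172
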