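import Vale.Agent.P159.T1.S.H711.HvP

/-!
P159: the variance of the localized heights tends to infinity as `b` increases to `b_c`.
-/

open Filter Topology

namespace Vale.Agent.P159.T1.S.H172

open Vale.Agent.P159 Vale.Agent.P159.T1.S.Hv
open Vale.Agent.P159.R2.H254 (bes bes_eq)
open Vale.Agent.P159.H353 (aw aw_nonneg summable_aw_col wI wI_eq wI_nonneg wI_zero_pos)

lemma bes_cont (n : ℤ) : Continuous fun b : ℝ => bes b n := by
  unfold bes
  refine continuous_const.mul ?_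
  exact intervalIntegral.continuous_parametric_intervalIntegral_of_continuous' (by fun_prop) _ _

lemma bes_nonneg {b : ℝ} (hb : 0 ≤ b) (n : ℤ) : 0 ≤ bes b n := by
  rw [bes_eq hb]; exact wI_nonneg hb n

lemma bes_le {a b : ℝ} (ha : 0 ≤ a) (hab : a ≤ b) (n : ℤ) :
    bes a n ≤ Real.exp (b - a) * bes b n := by
  have hb : 0 ≤ b := ha.trans hab
  rw [bes_eq ha, bes_eq hb, wI_eq, wI_eq, ← mul_assoc, ← Real.exp_add,
    show b - a + -b = -a by ring]
  refine mul_le_mul_of_nonneg_left ?_ (Real.exp_pos _).le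
  refine (summable_aw_col ha n).tsum_le_tsum (fun k => ?_) (summable_aw_col hb n)
  unfold aw
  gcongr

lemma hWt_nonneg {b : ℝ} (hb : 0 ≤ b) (U : Finset (ℤ × ℤ)) (h : ℤ × ℤ → ℤ) : 0 ≤ hWt b U h := by
  unfold hWt
  exact Finset.prod_nonneg fun x _ => mul_nonneg (bes_nonneg hb _) (bes_nonneg hb _)

lemma hWt_cont (U : Finset (ℤ × ℤ)) (h : ℤ × ℤ → ℤ) : Continuous fun b : ℝ => hWt b U h := by
  unfold hWt
  exact continuous_finsetProd _ fun x _ => (bes_cont _).mul (bes_cont _)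

lemma hWt_le {a b : ℝ} (ha : 0 ≤ a) (hab : a ≤ b) (U : Finset (ℤ × ℤ)) (h : ℤ × ℤ → ℤ) :
    hWt a U h ≤ Real.exp (b - a) ^ (2 * (nbh U).card) * hWt b U h := by
  have hb : 0 ≤ b := ha.trans hab
  have e : Real.exp (b - a) ^ (2 * (nbh U).card) * hWt b U h =
      ∏ x ∈ nbh U, (Real.exp (b - a) * bes b (h (x.1 + 1, x.2) - h x)) *
        (Real.exp (b - a) * bes b (h (x.1, x.2 + 1) - h x)) := by
    unfold hWt
    rw [pow_mul, ← Finset.prod_const, ← Finset.prod_mul_distrib]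
    exact Finset.prod_congr rfl fun x _ => by ring
  rw [e]
  unfold hWt
  refine Finset.prod_le_prod (fun x _ => mul_nonneg (bes_nonneg ha _) (bes_nonneg ha _))
    fun x _ => mul_le_mul (bes_le ha hab _) (bes_le ha hab _) (bes_nonneg ha _)
      (mul_nonneg (Real.exp_pos _).le (bes_nonneg hb _))

lemma hWt_zero_pos {b : ℝ} (hb : 0 ≤ b) (U : Finset (ℤ × ℤ)) : 0 < hWt b U 0 := by
  unfold hWt
  refine Finset.prod_pos fun x _ => ?_
  have h : 0 < bes b 0 := by rw [bes_eq hb]; exact wI_zero_pos hb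
  simpa using mul_pos h h

/-- the mean of a nonnegative function is lower semicontinuous from the left -/
theorem hMean_left {b0 m : ℝ} (hb0 : 0 < b0) (hm : 0 ≤ m) (U : Finset (ℤ × ℤ))
    {F : (ℤ × ℤ → ℤ) → ℝ} (hF : ∀ h, 0 ≤ F h) (h0 : m < hMean b0 U F) :
    ∃ δ : ℝ, 0 < δ ∧ δ < b0 ∧ ∀ b : ℝ, b0 - δ < b → b ≤ b0 → m < hMean b U F := by
  classical
  obtain ⟨N0, hN0⟩ : ∃ N0, N0 = ∑' h : Hts U, hWt b0 U h.1 * F h.1 := ⟨_, rfl⟩
  obtain ⟨Z0, hZ0⟩ : ∃ Z0, Z0 = ∑' h : Hts U, hWt b0 U h.1 := ⟨_, rfl⟩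
  have hr : m < N0 / Z0 := by rw [hN0, hZ0]; exact h0
  have nN : ∀ h : Hts U, 0 ≤ hWt b0 U h.1 * F h.1 := fun h =>
    mul_nonneg (hWt_nonneg hb0.le U _) (hF _)
  have nZ : ∀ h : Hts U, 0 ≤ hWt b0 U h.1 := fun h => hWt_nonneg hb0.le U _
  have hN1 : 0 ≤ N0 := by rw [hN0]; exact tsum_nonneg nN
  have hZ1 : 0 ≤ Z0 := by rw [hZ0]; exact tsum_nonneg nZ
  have hpos : 0 < N0 / Z0 := lt_of_le_of_lt hm hr
  have hZpos : 0 < Z0 := by
    rcases hZ1.lt_or_eq with h | h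
    · exact h
    · rw [← h, div_zero] at hpos; exact absurd hpos (lt_irrefl _)
  have hNpos : 0 < N0 := by
    rcases hN1.lt_or_eq with h | h
    · exact h
    · rw [← h, zero_div] at hpos; exact absurd hpos (lt_irrefl _)
  have sN : Summable fun h : Hts U => hWt b0 U h.1 * F h.1 := by
    by_contra h
    rw [hN0, tsum_eq_zero_of_not_summable h] at hNpos
    exact lt_irrefl _ hNpos
  have sZ : Summable fun h : Hts U => hWt b0 U h.1 := by
    by_contra h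
    rw [hZ0, tsum_eq_zero_of_not_summable h] at hZpos
    exact lt_irrefl _ hZpos
  have hlt : m * Z0 < N0 := (lt_div_iff₀ hZpos).1 hr
  have hT : Tendsto (fun s : Finset (Hts U) => ∑ h ∈ s, hWt b0 U h.1 * F h.1) atTop (𝓝 N0) := by
    rw [hN0]; exact sN.hasSum
  obtain ⟨s, hs⟩ := (hT.eventually (lt_mem_nhds hlt)).exists
  obtain ⟨c, hc⟩ : ∃ c : ℕ, c = 2 * (nbh U).card := ⟨_, rfl⟩
  have gc : Continuous fun b : ℝ => (∑ h ∈ s, hWt b U h.1 * F h.1) -
      m * (Real.exp (b0 - b) ^ c * Z0) := by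
    refine Continuous.sub (continuous_finsetSum _ fun h _ => (hWt_cont U h.1).mul_const _) ?_
    fun_prop
  have g0 : 0 < (∑ h ∈ s, hWt b0 U h.1 * F h.1) - m * (Real.exp (b0 - b0) ^ c * Z0) := by
    rw [sub_self, Real.exp_zero, one_pow, one_mul]
    linarith
  obtain ⟨δ, hδ, hd⟩ := Metric.eventually_nhds_iff.1
    (gc.continuousAt.eventually (lt_mem_nhds g0) : ∀ᶠ b in 𝓝 b0, 0 <
      (∑ h ∈ s, hWt b U h.1 * F h.1) - m * (Real.exp (b0 - b) ^ c * Z0))
  refine ⟨min δ (b0 / 2), lt_min hδ (by positivity), lt_of_le_of_lt (min_le_right _ _) (by linarith),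
    fun b hb1 hb2 => ?_⟩
  have hm1 : min δ (b0 / 2) ≤ δ := min_le_left _ _
  have hm2 : min δ (b0 / 2) ≤ b0 / 2 := min_le_right _ _
  have hb : 0 < b := by linarith
  have hg := hd (y := b) (by rw [Real.dist_eq, abs_of_nonpos (by linarith)]; linarith)
  have le1 : ∀ h : Hts U, hWt b U h.1 ≤ Real.exp (b0 - b) ^ c * hWt b0 U h.1 := fun h => by
    rw [hc]; exact hWt_le hb.le hb2 U h.1
  have sZb : Summable fun h : Hts U => hWt b U h.1 :=
    Summable.of_nonneg_of_le (fun h => hWt_nonneg hb.le U _) le1 (sZ.mul_left _)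
  have sNb : Summable fun h : Hts U => hWt b U h.1 * F h.1 := by
    refine Summable.of_nonneg_of_le (fun h => mul_nonneg (hWt_nonneg hb.le U _) (hF _))
      (fun h => ?_) (sN.mul_left (Real.exp (b0 - b) ^ c))
    rw [← mul_assoc]
    exact mul_le_mul_of_nonneg_right (le1 h) (hF _)
  have hZb : ∑' h : Hts U, hWt b U h.1 ≤ Real.exp (b0 - b) ^ c * Z0 := by
    rw [hZ0, ← tsum_mul_left]
    exact sZb.tsum_le_tsum le1 (sZ.mul_left _)
  have hNb : ∑ h ∈ s, hWt b U h.1 * F h.1 ≤ ∑' h : Hts U, hWt b U h.1 * F h.1 :=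
    sNb.sum_le_tsum s fun h _ => mul_nonneg (hWt_nonneg hb.le U _) (hF _)
  have hZbpos : 0 < ∑' h : Hts U, hWt b U h.1 := by
    have h1 : hWt b U (⟨0, fun _ _ => rfl⟩ : Hts U).1 ≤ ∑' h : Hts U, hWt b U h.1 :=
      sZb.le_tsum _ fun h _ => hWt_nonneg hb.le U _
    exact lt_of_lt_of_le (hWt_zero_pos hb.le U) h1
  show m < (∑' h : Hts U, hWt b U h.1 * F h.1) / ∑' h : Hts U, hWt b U h.1
  rw [lt_div_iff₀ hZbpos]
  have h2 : m * ∑' h : Hts U, hWt b U h.1 ≤ m * (Real.exp (b0 - b) ^ c * Z0) :=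
    mul_le_mul_of_nonneg_left hZb hm
  linarith

/-- **The variance of the height at the centre of large boxes tends to infinity as `b`
increases to `b_c`.** -/
theorem vinf (M : ℝ) : ∃ δ : ℝ, 0 < δ ∧ ∃ n : ℕ, ∀ b : ℝ, bCrit - δ < b → b ≤ bCrit →
    M < hMean b (Finset.Icc (-(n : ℤ), -(n : ℤ)) ((n : ℤ), (n : ℤ))) (fun h => (h 0 : ℝ) ^ 2) := by
  have hb0 : 0 < bCrit := (T1.H934.pos_of_ge bCrit le_rfl).1
  have hY : 0 < helicity bCrit :=
    lt_of_lt_of_le (by have := Real.pi_pos; positivity) (T1.H934.pos_of_ge bCrit le_rfl).2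
  have hp := Real.pi_pos
  have h1 := height_log' bCrit le_rfl
  have hlog : Tendsto (fun n : ℕ => Real.log n) atTop atTop :=
    Real.tendsto_log_atTop.comp tendsto_natCast_atTop_atTop
  have h2 := h1.pos_mul_atTop (by positivity) hlog
  obtain ⟨n, hn, hn1⟩ := ((h2.eventually_gt_atTop |M|).and (hlog.eventually_gt_atTop 0)).exists
  have h3 : |M| < hMean bCrit (Finset.Icc (-(n : ℤ), -(n : ℤ)) ((n : ℤ), (n : ℤ)))
      (fun h => (h 0 : ℝ) ^ 2) := by
    rwa [div_mul_cancel₀ _ hn1.ne'] at hn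
  obtain ⟨δ, hδ, _, hd⟩ := hMean_left hb0 (abs_nonneg M) _ (fun h => sq_nonneg _) h3
  exact ⟨δ, hδ, n, fun b hb1 hb2 => lt_of_le_of_lt (le_abs_self M) (hd b hb1 hb2)⟩

end Vale.Agent.P159.T1.S.H172
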