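import Vale.Agent.P159.T1.S.H172.Vinf

/-!
P159: how the weights of the heights depend on `b`; comparison of means.
-/

open Filter Topology

namespace Vale.Agent.P159.T1.S.H172.Win

open Vale.Agent.P159 Vale.Agent.P159.T1.D
open Vale.Agent.P159.H353 (aw aw_nonneg summable_aw_col wI wI_eq wI_nonneg wI_zero_pos cb)

/-- the Bessel function times `exp b` -/
noncomputable def vI (b : ℝ) (n : ℤ) : ℝ := ∑' k : ℕ, aw b k n

lemma wI_vI (b : ℝ) (n : ℤ) : wI b n = Real.exp (-b) * vI b n := wI_eq b n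

lemma vI_nonneg {b : ℝ} (hb : 0 ≤ b) (n : ℤ) : 0 ≤ vI b n := tsum_nonneg fun k => aw_nonneg hb k n

lemma vI_mono {a b : ℝ} (ha : 0 ≤ a) (hab : a ≤ b) (n : ℤ) : vI a n ≤ vI b n := by
  have hb : 0 ≤ b := ha.trans hab
  refine (summable_aw_col ha n).tsum_le_tsum (fun k => ?_) (summable_aw_col hb n)
  unfold aw
  gcongr

/-- the recursion of the binomial coefficients -/
lemma cb_succ (k N : ℕ) (h : N ≤ k + 1) :
    ((2 * (k + 1)).choose (k + 1 + N)) * ((k + 1 + N) * (k + 1 - N)) =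
      (2 * k + 2) * (2 * k + 1) * (2 * k).choose (k + N) := by
  have h1 := Nat.add_one_mul_choose_eq (2 * k + 1) (k + N)
  have h2 := Nat.choose_mul_succ_eq (2 * k) (k + N)
  have e1 : 2 * k + 1 - (k + N) = k + 1 - N := by omega
  rw [e1] at h2
  have e2 : 2 * (k + 1) = 2 * k + 1 + 1 := by ring
  have e3 : k + 1 + N = k + N + 1 := by ring
  rw [e2, e3]
  calc (2 * k + 1 + 1).choose (k + N + 1) * ((k + N + 1) * (k + 1 - N)) =
        ((2 * k + 1 + 1).choose (k + N + 1) * (k + N + 1)) * (k + 1 - N) := by ring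
    _ = ((2 * k + 1 + 1) * (2 * k + 1).choose (k + N)) * (k + 1 - N) := by rw [h1]
    _ = (2 * k + 1 + 1) * ((2 * k + 1).choose (k + N) * (k + 1 - N)) := by ring
    _ = (2 * k + 1 + 1) * ((2 * k).choose (k + N) * (2 * k + 1)) := by rw [h2]
    _ = _ := by ring

lemma aw_succ {b : ℝ} (hb : 0 ≤ b) (k : ℕ) (n : ℤ) :
    ((k : ℝ) + 1 - n.natAbs) * aw b (k + 1) n ≤ 2 * b * aw b k n := by
  have h0 := aw_nonneg hb k n
  rcases le_or_gt n.natAbs (k + 1) with h | h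
  · have h1 := cb_succ k n.natAbs h
    have h2 : ((2 * (k + 1)).choose (k + 1 + n.natAbs) : ℝ) *
        (((k : ℝ) + 1 + n.natAbs) * ((k : ℝ) + 1 - n.natAbs)) =
        (2 * (k : ℝ) + 2) * (2 * k + 1) * ((2 * k).choose (k + n.natAbs) : ℝ) := by
      have h3 : (((k + 1 - n.natAbs : ℕ) : ℕ) : ℝ) = (k : ℝ) + 1 - n.natAbs := by
        rw [Nat.cast_sub h]; push_cast; ring
      rw [← h3]
      exact_mod_cast h1
    obtain ⟨N, hN⟩ : ∃ N : ℝ, N = n.natAbs := ⟨_, rfl⟩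
    obtain ⟨c, hc⟩ : ∃ c : ℝ, c = ((2 * (k + 1)).choose (k + 1 + n.natAbs) : ℝ) := ⟨_, rfl⟩
    obtain ⟨d, hd⟩ : ∃ d : ℝ, d = ((2 * k).choose (k + n.natAbs) : ℝ) := ⟨_, rfl⟩
    have hN0 : 0 ≤ N := by rw [hN]; positivity
    have hd0 : 0 ≤ d := by rw [hd]; positivity
    unfold aw cb
    rw [← hN, ← hc, ← hd] at h2 ⊢
    have hk : (0 : ℝ) < (k.factorial : ℝ) := by exact_mod_cast k.factorial_pos
    have hk1 : (((k + 1).factorial : ℕ) : ℝ) = ((k : ℝ) + 1) * k.factorial := by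
      rw [Nat.factorial_succ]; push_cast; ring
    rw [hk1, pow_succ]
    have hs : (0 : ℝ) < (k : ℝ) + 1 + N := by positivity
    have hs1 : (0 : ℝ) < (k : ℝ) + 1 := by positivity
    have h5 : ((k : ℝ) + 1 - N) * c = (2 * (k : ℝ) + 2) * (2 * k + 1) * d / ((k : ℝ) + 1 + N) := by
      rw [eq_div_iff hs.ne', ← h2]; ring
    have h6 : ((k : ℝ) + 1 - N) * ((b / 2) ^ k * (b / 2) / (((k : ℝ) + 1) * k.factorial) * c) =
        (b / 2) ^ k / k.factorial * d * (b * ((2 * k + 1) / ((k : ℝ) + 1 + N))) := by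
      have : ((k : ℝ) + 1 - N) * ((b / 2) ^ k * (b / 2) / (((k : ℝ) + 1) * k.factorial) * c) =
          ((b / 2) ^ k * (b / 2) / (((k : ℝ) + 1) * k.factorial)) * (((k : ℝ) + 1 - N) * c) := by
        ring
      rw [this, h5]
      field_simp
    rw [h6]
    have h7 : (2 * (k : ℝ) + 1) / ((k : ℝ) + 1 + N) ≤ 2 := by
      rw [div_le_iff₀ hs]; linarith
    have h8 : 0 ≤ (b / 2) ^ k / k.factorial * d := by positivity
    calc (b / 2) ^ k / k.factorial * d * (b * ((2 * k + 1) / ((k : ℝ) + 1 + N))) ≤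
          (b / 2) ^ k / k.factorial * d * (b * 2) :=
        mul_le_mul_of_nonneg_left (mul_le_mul_of_nonneg_left h7 hb) h8
      _ = _ := by ring
  · have h1 : aw b (k + 1) n = 0 := by
      unfold aw cb
      rw [Nat.choose_eq_zero_of_lt (by omega)]
      simp
    rw [h1, mul_zero]
    positivity

lemma summable_k {b : ℝ} (hb : 0 ≤ b) (n : ℤ) : Summable fun k : ℕ => (k : ℝ) * aw b k n := by
  rw [← summable_nat_add_iff 1]
  have h1 := summable_aw_col hb n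
  refine Summable.of_nonneg_of_le (fun k => mul_nonneg (Nat.cast_nonneg _) (aw_nonneg hb _ _))
    (fun k => ?_) ((((summable_nat_add_iff 1).2 h1).mul_left (n.natAbs : ℝ)).add
      (h1.mul_left (2 * b)))
  have h2 := aw_succ hb k n
  push_cast
  linarith

lemma tsum_k {b : ℝ} (hb : 0 ≤ b) (n : ℤ) :
    ∑' k : ℕ, (k : ℝ) * aw b k n ≤ (n.natAbs + 2 * b) * vI b n := by
  have h1 := summable_aw_col hb n
  have hs := summable_k hb n
  have hs1 := (summable_nat_add_iff 1).2 h1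
  rw [hs.tsum_eq_zero_add]
  have h0 : ((0 : ℕ) : ℝ) * aw b 0 n = 0 := by simp
  rw [h0, zero_add]
  have h2 : ∑' k : ℕ, ((k + 1 : ℕ) : ℝ) * aw b (k + 1) n ≤
      ∑' k : ℕ, ((n.natAbs : ℝ) * aw b (k + 1) n + 2 * b * aw b k n) := by
    refine ((summable_nat_add_iff 1).2 hs).tsum_le_tsum (fun k => ?_)
      ((hs1.mul_left _).add (h1.mul_left _))
    have h2 := aw_succ hb k n
    push_cast
    linarith
  rw [(hs1.mul_left _).tsum_add (h1.mul_left _), tsum_mul_left, tsum_mul_left] at h2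
  have h3 : ∑' k : ℕ, aw b (k + 1) n ≤ vI b n := by
    unfold vI
    rw [h1.tsum_eq_zero_add]
    have := aw_nonneg hb 0 n
    linarith
  have h4 : (n.natAbs : ℝ) * ∑' k : ℕ, aw b (k + 1) n ≤ n.natAbs * vI b n :=
    mul_le_mul_of_nonneg_left h3 (Nat.cast_nonneg _)
  have h5 : ∑' k : ℕ, aw b k n = vI b n := rfl
  rw [h5] at h2
  linarith

/-- **the relative change of the weight** -/
theorem vI_sub {a b : ℝ} (hb : 0 < b) (ha : 0 ≤ a) (hab : a ≤ b) (n : ℤ) :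
    vI b n - vI a n ≤ (b - a) / b * (n.natAbs + 2 * b) * vI b n := by
  have h1 := summable_aw_col hb.le n
  have h2 := summable_aw_col ha n
  have hx : 0 ≤ (b - a) / b := div_nonneg (by linarith) hb.le
  have key : ∀ k : ℕ, aw b k n - aw a k n ≤ (b - a) / b * ((k : ℝ) * aw b k n) := by
    intro k
    have e : aw a k n = (a / b) ^ k * aw b k n := by
      unfold aw
      rw [div_pow, div_pow, div_pow]
      field_simp
    have h3 := one_add_mul_le_pow (a := a / b - 1) (by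
      have : 0 ≤ a / b := div_nonneg ha hb.le
      linarith) k
    rw [add_sub_cancel] at h3
    have h4 := mul_le_mul_of_nonneg_right h3 (aw_nonneg hb.le k n)
    have e2 : (b - a) / b = 1 - a / b := by field_simp
    rw [e, e2]
    linarith
  have h3 : ∑' k : ℕ, (aw b k n - aw a k n) ≤ ∑' k : ℕ, (b - a) / b * ((k : ℝ) * aw b k n) :=
    (h1.sub h2).tsum_le_tsum key ((summable_k hb.le n).mul_left _)
  rw [h1.tsum_sub h2, tsum_mul_left] at h3
  have h4 := mul_le_mul_of_nonneg_left (tsum_k hb.le n) hx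
  have e1 : ∑' k : ℕ, aw b k n = vI b n := rfl
  have e2 : ∑' k : ℕ, aw a k n = vI a n := rfl
  rw [e1, e2] at h3
  rw [mul_assoc]
  exact h3.trans h4

/-- products -/
lemma prod_sub {ι : Type*} (s : Finset ι) {u v t : ι → ℝ} (hu : ∀ i, 0 ≤ u i)
    (huv : ∀ i, u i ≤ v i) (ht0 : ∀ i, 0 ≤ t i) (ht : ∀ i, v i - u i ≤ t i * v i) :
    ∏ i ∈ s, v i - ∏ i ∈ s, u i ≤ (∑ i ∈ s, t i) * ∏ i ∈ s, v i := by
  classical
  induction s using Finset.induction_on with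
  | empty => simp
  | insert i s hi ih =>
    rw [Finset.prod_insert hi, Finset.prod_insert hi, Finset.sum_insert hi]
    have hv : ∀ i, 0 ≤ v i := fun i => (hu i).trans (huv i)
    have h1 : ∏ i ∈ s, u i ≤ ∏ i ∈ s, v i := Finset.prod_le_prod (fun i _ => hu i) fun i _ => huv i
    have h2 : 0 ≤ ∏ i ∈ s, u i := Finset.prod_nonneg fun i _ => hu i
    have h3 : (v i - u i) * ∏ i ∈ s, u i ≤ (t i * v i) * ∏ i ∈ s, v i :=
      mul_le_mul (ht i) h1 h2 (mul_nonneg (ht0 i) (hv i))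
    have h4 := mul_le_mul_of_nonneg_left ih (hv i)
    nlinarith

/-- **comparison of the means for two weights** -/
theorem mean_cmp {ι : Type*} {A B G F : ι → ℝ} (hA : ∀ i, 0 ≤ A i) (hAB : ∀ i, A i ≤ B i)
    (hG : ∀ i, 0 ≤ G i) (hAG : ∀ i, B i - A i ≤ G i * B i) (sB : Summable B)
    (sF : Summable fun i => B i * F i) (sFa : Summable fun i => B i * |F i|)
    (sG : Summable fun i => B i * G i) (sFG : Summable fun i => B i * (|F i| * G i))
    (hZ : 0 < ∑' i, B i) {f g k : ℝ} (hf : (∑' i, B i * |F i|) / ∑' i, B i ≤ f)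
    (hg : (∑' i, B i * G i) / ∑' i, B i ≤ g) (hg2 : g ≤ 1 / 2)
    (hk : (∑' i, B i * (|F i| * G i)) / ∑' i, B i ≤ k) :
    |(∑' i, A i * F i) / ∑' i, A i - (∑' i, B i * F i) / ∑' i, B i| ≤ 2 * (f * g + k) := by
  have hB : ∀ i, 0 ≤ B i := fun i => (hA i).trans (hAB i)
  have sA : Summable A := Summable.of_nonneg_of_le hA hAB sB
  have sAF : Summable fun i => A i * F i := by
    refine Summable.of_norm_bounded sFa fun i => ?_
    rw [Real.norm_eq_abs, abs_mul, abs_of_nonneg (hA i)]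
    exact mul_le_mul_of_nonneg_right (hAB i) (abs_nonneg _)
  obtain ⟨ZB, hZB⟩ : ∃ x, x = ∑' i, B i := ⟨_, rfl⟩
  obtain ⟨ZA, hZA⟩ : ∃ x, x = ∑' i, A i := ⟨_, rfl⟩
  obtain ⟨NB, hNB⟩ : ∃ x, x = ∑' i, B i * F i := ⟨_, rfl⟩
  obtain ⟨NA, hNA⟩ : ∃ x, x = ∑' i, A i * F i := ⟨_, rfl⟩
  obtain ⟨P, hP⟩ : ∃ x, x = ∑' i, B i * |F i| := ⟨_, rfl⟩
  obtain ⟨Q, hQ⟩ : ∃ x, x = ∑' i, B i * G i := ⟨_, rfl⟩
  obtain ⟨K, hK⟩ : ∃ x, x = ∑' i, B i * (|F i| * G i) := ⟨_, rfl⟩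
  rw [← hZB] at hZ
  rw [← hP, ← hZB, div_le_iff₀ hZ] at hf
  rw [← hQ, ← hZB, div_le_iff₀ hZ] at hg
  rw [← hK, ← hZB, div_le_iff₀ hZ] at hk
  rw [← hNA, ← hZA, ← hNB, ← hZB]
  have d1 : ZB - ZA ≤ Q := by
    rw [hZB, hZA, hQ, ← sB.tsum_sub sA]
    refine (sB.sub sA).tsum_le_tsum (fun i => ?_) sG
    rw [mul_comm]; exact hAG i
  have d0 : 0 ≤ ZB - ZA := by
    rw [hZB, hZA, ← sB.tsum_sub sA]
    exact tsum_nonneg fun i => sub_nonneg.2 (hAB i)
  have d2 : |NB - NA| ≤ K := by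
    rw [hNB, hNA, hK, ← sF.tsum_sub sAF]
    have h1 : ∀ i, ‖B i * F i - A i * F i‖ ≤ B i * (|F i| * G i) := fun i => by
      rw [← sub_mul, Real.norm_eq_abs, abs_mul, abs_of_nonneg (sub_nonneg.2 (hAB i))]
      have := mul_le_mul_of_nonneg_right (hAG i) (abs_nonneg (F i))
      linarith
    rw [← Real.norm_eq_abs]
    exact tsum_of_norm_bounded sFG.hasSum h1
  have d3 : |NB| ≤ P := by
    rw [hNB, hP, ← Real.norm_eq_abs]
    refine tsum_of_norm_bounded sFa.hasSum fun i => ?_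
    rw [Real.norm_eq_abs, abs_mul, abs_of_nonneg (hB i)]
  have hP0 : 0 ≤ P := (abs_nonneg _).trans d3
  have hQ0 : 0 ≤ Q := d0.trans d1
  have hZA2 : ZB / 2 ≤ ZA := by
    have : g * ZB ≤ 1 / 2 * ZB := mul_le_mul_of_nonneg_right hg2 hZ.le
    linarith
  have hZA0 : 0 < ZA := by linarith
  have e : NA / ZA - NB / ZB = (NB * (ZB - ZA) - (NB - NA) * ZB) / (ZA * ZB) := by
    field_simp
    ring
  rw [e, abs_div, abs_of_pos (mul_pos hZA0 hZ), div_le_iff₀ (mul_pos hZA0 hZ)]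
  have h1 : |NB * (ZB - ZA) - (NB - NA) * ZB| ≤ P * Q + K * ZB := by
    refine (abs_sub _ _).trans (add_le_add ?_ ?_)
    · rw [abs_mul, abs_of_nonneg d0]
      exact mul_le_mul d3 d1 d0 hP0
    · rw [abs_mul, abs_of_pos hZ]
      exact mul_le_mul_of_nonneg_right d2 hZ.le
  have hf0 : 0 ≤ f * ZB := hP0.trans hf
  have hg0 : 0 ≤ g * ZB := hQ0.trans hg
  have hf1 : 0 ≤ f := nonneg_of_mul_nonneg_left hf0 hZ
  have hg1 : 0 ≤ g := nonneg_of_mul_nonneg_left hg0 hZ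
  have hk1 : 0 ≤ k := by
    have : 0 ≤ k * ZB := ((abs_nonneg _).trans d2).trans hk
    exact nonneg_of_mul_nonneg_left this hZ
  have h2 : P * Q ≤ (f * ZB) * (g * ZB) := mul_le_mul hf hg hQ0 hf0
  have h3 : K * ZB ≤ (k * ZB) * ZB := mul_le_mul_of_nonneg_right hk hZ.le
  have h4 : (f * g + k) * (ZB * ZB) ≤ 2 * (f * g + k) * (ZA * ZB) := by
    have h5 : ZB * ZB ≤ 2 * (ZA * ZB) := by nlinarith
    have h6 : 0 ≤ f * g + k := by positivity
    have := mul_le_mul_of_nonneg_left h5 h6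
    linarith
  calc |NB * (ZB - ZA) - (NB - NA) * ZB| ≤ P * Q + K * ZB := h1
    _ ≤ (f * g + k) * (ZB * ZB) := by linarith
    _ ≤ _ := h4

end Vale.Agent.P159.T1.S.H172.Win
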