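import Vale.Agent.P159.T1.S.H172.Win1

/-!
P159: Lipschitz continuity in `b` of the covariances of the heights in a finite domain.
-/

open Filter Topology

namespace Vale.Agent.P159.T1.S.H172.Win

open Vale.Agent.P159 Vale.Agent.P159.T1.D Vale.Agent.P159.T1.S.Hv
open Vale.Agent.P159.H353 (wI wI_nonneg wI_zero_pos)

variable {a b : ℝ} {U : Finset Z2}

/-- the weight of the heights, times a constant -/
noncomputable def WV (b : ℝ) (U : Finset Z2) (h : Z2 → ℤ) : ℝ := ∏ e ∈ bd U, vI b (dh h e)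

lemma WV_nonneg (hb : 0 ≤ b) (U : Finset Z2) (h : Z2 → ℤ) : 0 ≤ WV b U h :=
  Finset.prod_nonneg fun _ _ => vI_nonneg hb _

lemma wt_WV (b : ℝ) (U : Finset Z2) (h : Z2 → ℤ) :
    wt b U 0 h = Real.exp (-b) ^ (bd U).card * WV b U h := by
  unfold wt WV
  rw [← Finset.prod_const, ← Finset.prod_mul_distrib]
  refine Finset.prod_congr rfl fun e _ => ?_
  rw [← wI_vI]
  simp

/-- the mean -/
noncomputable def Mn (b : ℝ) (U : Finset Z2) (F : Ht U → ℝ) : ℝ :=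
  (∑' h : Ht U, WV b U h.1 * F h) / ∑' h : Ht U, WV b U h.1

/-- summability -/
def Sm (b : ℝ) (U : Finset Z2) (F : Ht U → ℝ) : Prop := Summable fun h : Ht U => WV b U h.1 * F h

lemma cst_pos (b : ℝ) (U : Finset Z2) : 0 < Real.exp (-b) ^ (bd U).card :=
  pow_pos (Real.exp_pos _) _

lemma Sm_of {F : Ht U → ℝ} (h : Summable fun h : Ht U => wt b U 0 h.1 * F h) : Sm b U F := by
  have e : (fun h : Ht U => wt b U 0 h.1 * F h) =
      fun h : Ht U => Real.exp (-b) ^ (bd U).card * (WV b U h.1 * F h) := by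
    funext h
    rw [wt_WV, mul_assoc]
  rw [e, summable_mul_left_iff (cst_pos b U).ne'] at h
  exact h

lemma Sm_one (hb : 0 ≤ b) (U : Finset Z2) : Summable fun h : Ht U => WV b U h.1 := by
  have h1 : Sm b U fun _ => 1 := Sm_of ((H469.summable_one hb U 0).congr fun h => (mul_one _).symm)
  exact h1.congr fun h => mul_one _

lemma E_Mn (b : ℝ) (U : Finset Z2) (F : (Z2 → ℤ) → ℝ) : E b U F = Mn b U fun h => F h.1 := by
  unfold E Mn Z
  have e1 : ∑' h : Ht U, wt b U 0 h.1 * F h.1 =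
      Real.exp (-b) ^ (bd U).card * ∑' h : Ht U, WV b U h.1 * F h.1 := by
    rw [← tsum_mul_left]
    exact tsum_congr fun h => by rw [wt_WV, mul_assoc]
  have e2 : ∑' h : Ht U, wt b U 0 h.1 =
      Real.exp (-b) ^ (bd U).card * ∑' h : Ht U, WV b U h.1 := by
    rw [← tsum_mul_left]
    exact tsum_congr fun h => wt_WV b U h.1
  rw [e1, e2, mul_div_mul_left _ _ (cst_pos b U).ne']

lemma Zv_pos (hb : 0 ≤ b) (U : Finset Z2) : 0 < ∑' h : Ht U, WV b U h.1 := by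
  have h1 := H469.Z_pos hb U
  have e2 : Z b U = Real.exp (-b) ^ (bd U).card * ∑' h : Ht U, WV b U h.1 := by
    unfold Z
    rw [← tsum_mul_left]
    exact tsum_congr fun h => wt_WV b U h.1
  rw [e2] at h1
  exact pos_of_mul_pos_right h1 (cst_pos b U).le

lemma Mn_mono (hb : 0 ≤ b) {F H : Ht U → ℝ} (sF : Sm b U F) (sH : Sm b U H)
    (h : ∀ k, F k ≤ H k) : Mn b U F ≤ Mn b U H := by
  unfold Mn
  refine div_le_div_of_nonneg_right ?_ (Zv_pos hb U).le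
  exact Summable.tsum_le_tsum (fun k => mul_le_mul_of_nonneg_left (h k) (WV_nonneg hb U _)) sF sH

lemma Sm.mono (hb : 0 ≤ b) {F H : Ht U → ℝ} (sH : Sm b U H) (h : ∀ k, |F k| ≤ H k) :
    Sm b U F := by
  refine Summable.of_norm_bounded sH fun k => ?_
  rw [Real.norm_eq_abs, abs_mul, abs_of_nonneg (WV_nonneg hb U _)]
  exact mul_le_mul_of_nonneg_left (h k) (WV_nonneg hb U _)

lemma Sm.add {F H : Ht U → ℝ} (sF : Sm b U F) (sH : Sm b U H) : Sm b U fun k => F k + H k := by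
  unfold Sm at *
  exact (Summable.add sF sH).congr fun k => (mul_add _ _ _).symm

lemma Sm.smul {F : Ht U → ℝ} (c : ℝ) (sF : Sm b U F) : Sm b U fun k => c * F k := by
  unfold Sm at *
  exact (Summable.mul_left c sF).congr fun k => mul_left_comm _ _ _

lemma Sm_const (hb : 0 ≤ b) (c : ℝ) : Sm b U fun _ => c :=
  ((Sm_one hb U).mul_right c).congr fun _ => rfl

lemma Sm.sum {ι : Type*} (s : Finset ι) {F : ι → Ht U → ℝ} (hb : 0 ≤ b)
    (sF : ∀ i ∈ s, Sm b U (F i)) : Sm b U fun k => ∑ i ∈ s, F i k := by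
  classical
  induction s using Finset.induction_on with
  | empty => simpa using Sm_const (U := U) hb 0
  | insert i s hi ih =>
    have h1 := (sF i (Finset.mem_insert_self _ _)).add
      (ih fun j hj => sF j (Finset.mem_insert_of_mem hj))
    exact h1.congr fun k => by simp only [Finset.sum_insert hi]

lemma Mn_add {F H : Ht U → ℝ} (sF : Sm b U F) (sH : Sm b U H) :
    Mn b U (fun k => F k + H k) = Mn b U F + Mn b U H := by
  unfold Mn
  rw [← add_div]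
  congr 1
  rw [← Summable.tsum_add sF sH]
  exact tsum_congr fun k => mul_add _ _ _

lemma Mn_smul (c : ℝ) (F : Ht U → ℝ) : Mn b U (fun k => c * F k) = c * Mn b U F := by
  unfold Mn
  rw [← mul_div_assoc, ← tsum_mul_left]
  congr 1
  exact tsum_congr fun k => mul_left_comm _ _ _

lemma Mn_const (hb : 0 ≤ b) (c : ℝ) : Mn b U (fun _ => c) = c := by
  unfold Mn
  rw [tsum_mul_right, mul_div_assoc, mul_comm, div_mul_cancel₀ _ (Zv_pos hb U).ne']

lemma Mn_sum_le {ι : Type*} (s : Finset ι) {F : ι → Ht U → ℝ} (hb : 0 ≤ b)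
    (sF : ∀ i ∈ s, Sm b U (F i)) {c : ℝ} (hc : ∀ i ∈ s, Mn b U (F i) ≤ c) :
    Mn b U (fun k => ∑ i ∈ s, F i k) ≤ s.card * c := by
  classical
  induction s using Finset.induction_on with
  | empty => simp [Mn_const hb]
  | insert i s hi ih =>
    have h1 := sF i (Finset.mem_insert_self _ _)
    have h2 : Sm b U fun k => ∑ i ∈ s, F i k :=
      Sm.sum s hb fun j hj => sF j (Finset.mem_insert_of_mem hj)
    have h3 := ih (fun j hj => sF j (Finset.mem_insert_of_mem hj))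
      fun j hj => hc j (Finset.mem_insert_of_mem hj)
    have e : (fun k => ∑ i ∈ insert i s, F i k) = fun k => F i k + ∑ i ∈ s, F i k := by
      funext k; exact Finset.sum_insert hi
    rw [e, Mn_add h1 h2, Finset.card_insert_of_notMem hi]
    have h4 := hc i (Finset.mem_insert_self _ _)
    push_cast
    linarith

/-! ### moments -/

lemma Sm_two (hb : 0 ≤ b) (B : Bnd → ℝ) : Sm b U fun h => pr U B 0 h.1 ^ 2 :=
  Sm_of (H469.summable_sq hb U 0 B)

lemma Sm_four (hb : 0 ≤ b) (B : Bnd → ℝ) : Sm b U fun h => pr U B 0 h.1 ^ 4 := by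
  refine Sm_of (H469.summable_wt hb U 0 B (F := fun h => pr U B 0 h ^ 4) (C := 24) fun h => ?_)
  have h1 := Real.pow_div_factorial_le_exp _ (abs_nonneg (pr U B 0 h.1)) 4
  have e : ((Nat.factorial 4 : ℕ) : ℝ) = 24 := by norm_num [Nat.factorial]
  rw [e, div_le_iff₀ (by norm_num)] at h1
  rw [abs_pow]
  linarith

/-- the indicator of a bond -/
noncomputable def ind (e : Bnd) : Bnd → ℝ := fun e' => if e' = e then 1 else 0

lemma pr_ind {e : Bnd} (he : e ∈ bd U) (h : Z2 → ℤ) : pr U (ind e) 0 h = dh h e := by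
  unfold pr ind
  rw [Finset.sum_eq_single e]
  · simp
  · intro e' _ hne
    rw [if_neg hne, zero_mul]
  · exact fun h' => absurd he h'

lemma Mn_dh (hb : 0 ≤ b) {e : Bnd} (he : e ∈ bd U) :
    Mn b U (fun h => (dh h.1 e : ℝ) ^ 2) ≤ b := by
  have h1 := H910.Vr_le hb U (ind e)
  unfold Vr at h1
  rw [E_Mn] at h1
  have e1 : (fun h : Ht U => pr U (ind e) 0 h.1 ^ 2) = fun h : Ht U => (dh h.1 e : ℝ) ^ 2 := by
    funext h; rw [pr_ind he]
  rw [e1] at h1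
  have h2 : ∑ e' ∈ bd U, ind e e' ^ 2 = 1 := by
    unfold ind
    rw [Finset.sum_eq_single e]
    · simp
    · intro e' _ hne
      rw [if_neg hne]; simp
    · exact fun h' => absurd he h'
  rw [h2, mul_one] at h1
  exact h1

lemma Sm_dh (hb : 0 ≤ b) {e : Bnd} (he : e ∈ bd U) : Sm b U fun h => (dh h.1 e : ℝ) ^ 2 :=
  (Sm_two hb (ind e)).congr fun h => by beta_reduce; rw [pr_ind he]

/-- the constant -/
noncomputable def K4 (b : ℝ) : ℝ := 144 * b ^ 2 / (min b 1) ^ 2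

/-- a flow from `x` with energy at most `A` -/
def Flow (U : Finset Z2) (x : Z2) (A : ℝ) : Prop :=
  ∃ B : Bnd → ℝ, IsDiv U B (dl x) ∧ ∑ e ∈ bd U, B e ^ 2 ≤ A

lemma pr_flow {B : Bnd → ℝ} {x : Z2} (hB : IsDiv U B (dl x)) (hx : x ∈ U) (h : Ht U) :
    pr U B 0 h.1 = h.1 x := by
  rw [H910.pr_isDiv hB h, ch_dl hx]

lemma Sm_x2 (hb : 0 ≤ b) {x : Z2} (hx : x ∈ U) {A : ℝ} (hA : Flow U x A) :
    Sm b U fun h => (h.1 x : ℝ) ^ 2 := by
  obtain ⟨B, hB, _⟩ := hA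
  exact (Sm_two hb B).congr fun h => by beta_reduce; rw [pr_flow hB hx]

lemma Sm_x4 (hb : 0 ≤ b) {x : Z2} (hx : x ∈ U) {A : ℝ} (hA : Flow U x A) :
    Sm b U fun h => (h.1 x : ℝ) ^ 4 := by
  obtain ⟨B, hB, _⟩ := hA
  exact (Sm_four hb B).congr fun h => by beta_reduce; rw [pr_flow hB hx]

lemma Mn_x2 (hb : 0 ≤ b) {x : Z2} (hx : x ∈ U) {A : ℝ} (hA : Flow U x A) :
    Mn b U (fun h => (h.1 x : ℝ) ^ 2) ≤ b * A := by
  obtain ⟨B, hB, h2⟩ := hA
  have h1 := H910.Vr_le hb U B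
  unfold Vr at h1
  rw [E_Mn] at h1
  have e1 : (fun h : Ht U => pr U B 0 h.1 ^ 2) = fun h : Ht U => (h.1 x : ℝ) ^ 2 := by
    funext h; rw [pr_flow hB hx]
  rw [e1] at h1
  exact h1.trans (mul_le_mul_of_nonneg_left h2 hb)

lemma Mn_x4 (hb : 0 < b) {x : Z2} (hx : x ∈ U) {A : ℝ} (hA0 : 0 < A) (hA : Flow U x A) :
    Mn b U (fun h => (h.1 x : ℝ) ^ 4) ≤ K4 b * A ^ 2 := by
  obtain ⟨B, hB, h2⟩ := hA
  have h1 := H910.E_four_le hb U hA0 h2
  rw [E_Mn] at h1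
  have e1 : (fun h : Ht U => pr U B 0 h.1 ^ 4) = fun h : Ht U => (h.1 x : ℝ) ^ 4 := by
    funext h; rw [pr_flow hB hx]
  rw [e1] at h1
  refine h1.trans (le_of_eq ?_)
  unfold K4
  ring

/-- **Lipschitz continuity in `b` of the covariances of the heights** -/
theorem E_lip (hb : 0 < b) (ha : 0 ≤ a) (hab : a ≤ b) {x y : Z2} (hx : x ∈ U) (hy : y ∈ U)
    {A : ℝ} (hA : 0 < A) (fx : Flow U x A) (fy : Flow U y A) {q : ℝ} (hq : q = (b - a) / b)
    (hs : q * ((bd U).card * (1 + 3 * b)) ≤ 1 / 2) :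
    |E a U (fun h => (h x : ℝ) * h y) - E b U (fun h => (h x : ℝ) * h y)| ≤
      q * (bd U).card * A * (4 * b + 14 * b ^ 2 + K4 b) := by
  have hb' := hb.le
  have hq0 : 0 ≤ q := by rw [hq]; exact div_nonneg (by linarith) hb'
  obtain ⟨G, hG⟩ : ∃ G : Ht U → ℝ, G = fun h => ∑ e ∈ bd U,
    q * (((dh h.1 e).natAbs : ℝ) + 2 * b) := ⟨_, rfl⟩
  have hnat : ∀ k : ℤ, ((k.natAbs : ℕ) : ℝ) ^ 2 = (k : ℝ) ^ 2 := fun k => by
    rw [Nat.cast_natAbs, Int.cast_abs, sq_abs]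
  -- the pieces
  have s1 : ∀ e ∈ bd U, Sm b U fun h => q * (((dh h.1 e).natAbs : ℝ) + 2 * b) := by
    intro e he
    refine Sm.smul q (Sm.mono hb' (((Sm_dh hb' he)).add (Sm_const hb' (1 + 2 * b))) fun h => ?_)
    rw [abs_of_nonneg (by positivity)]
    have h1 := hnat (dh h.1 e)
    nlinarith [sq_nonneg (((dh h.1 e).natAbs : ℝ) - 1)]
  have m1 : ∀ e ∈ bd U, Mn b U (fun h => q * (((dh h.1 e).natAbs : ℝ) + 2 * b)) ≤
      q * (1 + 3 * b) := by
    intro e he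
    rw [Mn_smul]
    refine mul_le_mul_of_nonneg_left ?_ hq0
    have s2 : Sm b U fun h => (dh h.1 e : ℝ) ^ 2 + (1 + 2 * b) :=
      (Sm_dh hb' he).add (Sm_const hb' (1 + 2 * b))
    have h0 : ∀ h : Ht U, ((dh h.1 e).natAbs : ℝ) + 2 * b ≤ (dh h.1 e : ℝ) ^ 2 + (1 + 2 * b) := by
      intro h
      have h1 := hnat (dh h.1 e)
      nlinarith [sq_nonneg (((dh h.1 e).natAbs : ℝ) - 1)]
    have h3 : Mn b U (fun h => ((dh h.1 e).natAbs : ℝ) + 2 * b) ≤
        Mn b U (fun h => (dh h.1 e : ℝ) ^ 2 + (1 + 2 * b)) :=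
      Mn_mono hb' (Sm.mono hb' s2 fun h => by rw [abs_of_nonneg (by positivity)]; exact h0 h) s2 h0
    rw [Mn_add (Sm_dh hb' he) (Sm_const hb' _), Mn_const hb'] at h3
    have := Mn_dh hb' he
    linarith
  have sG : Sm b U G := by rw [hG]; exact Sm.sum _ hb' s1
  have mG : Mn b U G ≤ q * ((bd U).card * (1 + 3 * b)) := by
    rw [hG]
    refine (Mn_sum_le _ hb' s1 m1).trans (le_of_eq ?_)
    ring
  -- `|F|`
  have sF2 : Sm b U fun h => 1 / 2 * ((h.1 x : ℝ) ^ 2 + (h.1 y : ℝ) ^ 2) :=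
    ((Sm_x2 hb' hx fx).add (Sm_x2 hb' hy fy)).smul _
  have hF2 : ∀ h : Ht U, |(h.1 x : ℝ) * h.1 y| ≤ 1 / 2 * ((h.1 x : ℝ) ^ 2 + (h.1 y : ℝ) ^ 2) := by
    intro h
    rw [abs_le]
    constructor <;> nlinarith [sq_nonneg ((h.1 x : ℝ) + h.1 y), sq_nonneg ((h.1 x : ℝ) - h.1 y)]
  have sF : Sm b U fun h => (h.1 x : ℝ) * h.1 y := sF2.mono hb' hF2
  have sFa : Sm b U fun h => |(h.1 x : ℝ) * h.1 y| :=
    sF2.mono hb' fun h => by rw [abs_abs]; exact hF2 h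
  have mF : Mn b U (fun h => |(h.1 x : ℝ) * h.1 y|) ≤ b * A := by
    refine (Mn_mono hb' sFa sF2 hF2).trans ?_
    rw [Mn_smul, Mn_add (Sm_x2 hb' hx fx) (Sm_x2 hb' hy fy)]
    have h1 := Mn_x2 hb' hx fx
    have h2 := Mn_x2 hb' hy fy
    linarith
  -- `|F| G`
  obtain ⟨T, hT⟩ : ∃ T : Bnd → Ht U → ℝ, T = fun e h => q * (1 / (4 * A) *
    ((h.1 x : ℝ) ^ 4 + (h.1 y : ℝ) ^ 4) + A * ((dh h.1 e : ℝ) ^ 2 + 4 * b ^ 2)) := ⟨_, rfl⟩
  have sT : ∀ e ∈ bd U, Sm b U (T e) := by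
    intro e he
    rw [hT]
    exact ((((Sm_x4 hb' hx fx).add (Sm_x4 hb' hy fy)).smul _).add
      (((Sm_dh hb' he).add (Sm_const hb' _)).smul _)).smul _
  have mT : ∀ e ∈ bd U, Mn b U (T e) ≤ q * (A * (K4 b / 2 + b + 4 * b ^ 2)) := by
    intro e he
    rw [hT]
    simp only
    rw [Mn_smul, Mn_add (((Sm_x4 hb' hx fx).add (Sm_x4 hb' hy fy)).smul _)
      (((Sm_dh hb' he).add (Sm_const hb' _)).smul _), Mn_smul, Mn_smul,
      Mn_add (Sm_x4 hb' hx fx) (Sm_x4 hb' hy fy), Mn_add (Sm_dh hb' he) (Sm_const hb' _),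
      Mn_const hb']
    refine mul_le_mul_of_nonneg_left ?_ hq0
    have h1 := Mn_x4 hb hx hA fx
    have h2 := Mn_x4 hb hy hA fy
    have h3 := Mn_dh hb' he
    have h4 : 1 / (4 * A) * (Mn b U (fun h => (h.1 x : ℝ) ^ 4) + Mn b U fun h => (h.1 y : ℝ) ^ 4) ≤
        1 / (4 * A) * (2 * (K4 b * A ^ 2)) :=
      mul_le_mul_of_nonneg_left (by linarith) (by positivity)
    have h5 : 1 / (4 * A) * (2 * (K4 b * A ^ 2)) = A * (K4 b / 2) := by
      field_simp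
      ring
    have h6 : A * (Mn b U (fun h => (dh h.1 e : ℝ) ^ 2) + 4 * b ^ 2) ≤ A * (b + 4 * b ^ 2) :=
      mul_le_mul_of_nonneg_left (by linarith) hA.le
    linarith
  have hTG : ∀ h : Ht U, |(h.1 x : ℝ) * h.1 y| * G h ≤ ∑ e ∈ bd U, T e h := by
    intro h
    rw [hG, hT]
    simp only
    rw [Finset.mul_sum]
    refine Finset.sum_le_sum fun e _ => ?_
    obtain ⟨u, hu⟩ : ∃ u : ℝ, u = |(h.1 x : ℝ) * h.1 y| := ⟨_, rfl⟩
    obtain ⟨v, hv⟩ : ∃ v : ℝ, v = ((dh h.1 e).natAbs : ℝ) + 2 * b := ⟨_, rfl⟩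
    have hu2 : u ^ 2 ≤ 1 / 2 * ((h.1 x : ℝ) ^ 4 + (h.1 y : ℝ) ^ 4) := by
      rw [hu, sq_abs]
      nlinarith [sq_nonneg ((h.1 x : ℝ) ^ 2 - (h.1 y : ℝ) ^ 2)]
    have hv2 : v ^ 2 ≤ 2 * ((dh h.1 e : ℝ) ^ 2 + 4 * b ^ 2) := by
      have h1 := hnat (dh h.1 e)
      rw [hv]
      nlinarith [sq_nonneg (((dh h.1 e).natAbs : ℝ) - 2 * b)]
    rw [← hu, ← hv]
    have h1 : u * v ≤ 1 / (2 * A) * u ^ 2 + A / 2 * v ^ 2 := by
      have h2 : 0 ≤ 1 / (2 * A) * (u - A * v) ^ 2 := by positivity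
      have h3 : 1 / (2 * A) * (u - A * v) ^ 2 =
          1 / (2 * A) * u ^ 2 + A / 2 * v ^ 2 - u * v := by
        field_simp
        ring
      linarith
    have h2 : 1 / (2 * A) * u ^ 2 ≤ 1 / (4 * A) * ((h.1 x : ℝ) ^ 4 + (h.1 y : ℝ) ^ 4) := by
      have h3 := mul_le_mul_of_nonneg_left hu2 (by positivity : 0 ≤ 1 / (2 * A))
      refine h3.trans (le_of_eq ?_)
      field_simp
      ring
    have h4 : A / 2 * v ^ 2 ≤ A * ((dh h.1 e : ℝ) ^ 2 + 4 * b ^ 2) := by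
      have h3 := mul_le_mul_of_nonneg_left hv2 (by positivity : 0 ≤ A / 2)
      refine h3.trans (le_of_eq ?_)
      ring
    calc u * (q * v) = q * (u * v) := by ring
      _ ≤ _ := mul_le_mul_of_nonneg_left (h1.trans (add_le_add h2 h4)) hq0
  have hG0 : ∀ h : Ht U, 0 ≤ G h := by
    intro h
    rw [hG]
    exact Finset.sum_nonneg fun e _ => by positivity
  have sTT : Sm b U fun h => ∑ e ∈ bd U, T e h := Sm.sum _ hb' sT
  have sFG : Sm b U fun h => |(h.1 x : ℝ) * h.1 y| * G h :=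
    sTT.mono hb' fun h => by
      rw [abs_of_nonneg (mul_nonneg (abs_nonneg _) (hG0 h))]; exact hTG h
  have mFG : Mn b U (fun h => |(h.1 x : ℝ) * h.1 y| * G h) ≤
      (bd U).card * (q * (A * (K4 b / 2 + b + 4 * b ^ 2))) :=
    (Mn_mono hb' sFG sTT hTG).trans (Mn_sum_le _ hb' sT mT)
  -- the comparison
  have key := mean_cmp (A := fun h : Ht U => WV a U h.1) (B := fun h : Ht U => WV b U h.1)
    (G := G) (F := fun h : Ht U => (h.1 x : ℝ) * h.1 y) (fun h => WV_nonneg ha U _)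
    (fun h => Finset.prod_le_prod (fun _ _ => vI_nonneg ha _) fun _ _ => vI_mono ha hab _) hG0
    (fun h => by
      rw [hG]
      exact prod_sub (bd U) (fun e => vI_nonneg ha (dh h.1 e)) (fun e => vI_mono ha hab _)
        (fun e => by positivity) (fun e => by
          have := vI_sub hb ha hab (dh h.1 e)
          rw [← hq] at this
          exact this))
    (Sm_one hb' U) sF sFa sG sFG (Zv_pos hb' U) mF mG hs mFG
  rw [E_Mn, E_Mn]
  refine le_trans (le_of_eq ?_) (key.trans (le_of_eq ?_))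
  · rfl
  · ring

end Vale.Agent.P159.T1.S.H172.Win
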