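import Vale.Agent.P159.T1.S.H172.Win2
import Vale.Agent.P159.T1.S.H711.RHd

/-!
P159: the covariances of the heights in the near-critical window.
-/

open Filter Topology

namespace Vale.Agent.P159.T1.S.H172.Win

open Vale.Agent.P159 Vale.Agent.P159.T1.D Vale.Agent.P159.T1.S.Hv

/-- every face of a box has a flow of logarithmic energy -/
theorem exists_flow : ∃ K : ℝ, 0 < K ∧ ∀ n : ℕ, 1 ≤ n → ∀ x : Z2, x ∈ bx 0 n →
    Flow (bx 0 n) x (K * (1 + Real.log n)) := by
  classical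
  have hp := Real.pi_pos
  obtain ⟨K1, hK1⟩ : ∃ K1 : ℝ, K1 = (1 / (4 * Real.pi ^ 2)) * ((1 + 1) * (2 * Real.pi *
    Real.log 9 + (4 * Real.pi + 32)) + (1 + 1 / 1) * 1152) := ⟨_, rfl⟩
  have h9 : 0 < Real.log 9 := Real.log_pos (by norm_num)
  have hK1p : 0 < K1 := by rw [hK1]; positivity
  refine ⟨K1 + 1 / Real.pi, by positivity, fun n hn x hx => ?_⟩
  have hn' : (1 : ℝ) ≤ n := by exact_mod_cast hn
  have hl : 0 ≤ Real.log n := Real.log_nonneg hn'
  rw [mem_bx0] at hx
  refine ⟨fun e => Hv.Bf (2 * n) (sh (-x) e), fun f hf => ?_, ?_⟩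
  · rw [mem_bx0] at hf
    have h1 := Bf_isDiv (2 * n) (f - x) (by
      rw [mem_bx0]
      simp only [Prod.fst_sub, Prod.snd_sub]
      push_cast
      omega)
    have e1 : sh (-x) (f, false) = (f - x, false) := by
      unfold sh; rw [sub_eq_add_neg]
    have e2 : sh (-x) ((f.1, f.2 + 1), false) = (((f - x).1, (f - x).2 + 1), false) := by
      unfold sh
      refine Prod.ext (Prod.ext ?_ ?_) rfl <;> simp <;> ring
    have e3 : sh (-x) ((f.1 + 1, f.2), true) = (((f - x).1 + 1, (f - x).2), true) := by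
      unfold sh
      refine Prod.ext (Prod.ext ?_ ?_) rfl <;> simp <;> ring
    have e4 : sh (-x) (f, true) = (f - x, true) := by
      unfold sh; rw [sub_eq_add_neg]
    simp only [e1, e2, e3, e4]
    rw [h1]
    unfold dl
    by_cases h : f = x
    · rw [if_pos h, if_pos (by rw [h, sub_self])]
    · rw [if_neg h, if_neg (sub_ne_zero.2 h)]
  · have hinj : Function.Injective (sh (-x)) := by
      intro e e' h
      unfold sh at h
      have h1 := congrArg Prod.fst h
      have h2 := congrArg Prod.snd h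
      simp only at h1 h2
      exact Prod.ext (add_right_cancel h1) h2
    have h1 : ∑ e ∈ bd (bx 0 n), Hv.Bf (2 * n) (sh (-x) e) ^ 2 ≤
        ∑ e ∈ SP (2 * (2 * n)), Hv.Bf (2 * n) e ^ 2 := by
      rw [← Finset.sum_image (s := bd (bx 0 n)) (g := sh (-x)) (f := fun e => Hv.Bf (2 * n) e ^ 2)
        (fun e _ e' _ h => hinj h)]
      have h2 : ∑ e ∈ SP (2 * (2 * n)) ∪ (bd (bx 0 n)).image (sh (-x)), Hv.Bf (2 * n) e ^ 2 =
          ∑ e ∈ SP (2 * (2 * n)), Hv.Bf (2 * n) e ^ 2 := by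
        symm
        refine Finset.sum_subset Finset.subset_union_left fun e _ he => ?_
        rw [Bf_off he]
        simp
      rw [← h2]
      exact Finset.sum_le_sum_of_subset_of_nonneg Finset.subset_union_right
        fun e _ _ => sq_nonneg _
    refine h1.trans ((Bf_energy (n := 2 * n) one_pos).trans ?_)
    have h3 : Real.log (4 * ((2 * n : ℕ) : ℝ) + 1) ≤ Real.log 9 + Real.log n := by
      rw [← Real.log_mul (by norm_num) (by positivity)]
      refine Real.log_le_log (by positivity) ?_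
      push_cast
      linarith
    have h4 : (1 / (4 * Real.pi ^ 2)) * ((1 + 1) * (2 * Real.pi *
        Real.log (4 * ((2 * n : ℕ) : ℝ) + 1) + (4 * Real.pi + 32)) + (1 + 1 / 1) * 1152) ≤
        (1 / (4 * Real.pi ^ 2)) * ((1 + 1) * (2 * Real.pi *
        (Real.log 9 + Real.log n) + (4 * Real.pi + 32)) + (1 + 1 / 1) * 1152) := by
      refine mul_le_mul_of_nonneg_left ?_ (by positivity)
      have := mul_le_mul_of_nonneg_left h3 (by positivity : 0 ≤ 2 * Real.pi)
      linarith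
    have h5 : (1 / (4 * Real.pi ^ 2)) * ((1 + 1) * (2 * Real.pi *
        (Real.log 9 + Real.log n) + (4 * Real.pi + 32)) + (1 + 1 / 1) * 1152) =
        K1 + 1 / Real.pi * Real.log n := by
      rw [hK1]
      field_simp
      ring
    rw [h5] at h4
    refine h4.trans ?_
    have h6 : 0 ≤ K1 * Real.log n := by positivity
    have h7 : 0 ≤ 1 / Real.pi := by positivity
    nlinarith

/-- **The covariances of the heights in the near-critical window.** -/
theorem cov_win (ε : ℝ) (hε : 0 < ε) : ∃ d : ℝ, 0 < d ∧ ∃ C : ℝ, ∀ b : ℝ, 0 < b → b ≤ bCrit →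
    ∀ n : ℕ, 1 ≤ n → (bCrit - b) * (n : ℝ) ^ 2 ≤ d →
      ∀ x y : ℤ × ℤ, 2 * max |x.1| |x.2| ≤ n → 2 * max |y.1| |y.2| ≤ n →
        |hMean b (Finset.Icc (-(n : ℤ), -(n : ℤ)) ((n : ℤ), (n : ℤ)))
            (fun h => (h x : ℝ) * h y) -
          helicity bCrit / (2 * Real.pi) *
            Real.log (n / (max 1 ((max |(x - y).1| |(x - y).2| : ℤ) : ℝ)))| ≤
          ε * Real.log n + C := by
  obtain ⟨c, hc⟩ : ∃ c : ℝ, c = bCrit := ⟨_, rfl⟩
  have hc0 : 0 < c := by rw [hc]; exact (T1.H934.pos_of_ge bCrit le_rfl).1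
  obtain ⟨K, hK, hfl⟩ := exists_flow
  obtain ⟨C0, hC0⟩ := cov_log' bCrit le_rfl (ε / 2) (half_pos hε)
  obtain ⟨M, hM⟩ : ∃ M : ℝ, M = 4 * c + 14 * c ^ 2 + K4 c := ⟨_, rfl⟩
  have hM0 : 0 < M := by
    rw [hM]
    unfold K4
    positivity
  refine ⟨min (c / (64 * (1 + 3 * c))) (ε * c / (64 * (K * M))), lt_min (by positivity)
    (by positivity), C0 + ε / 2, fun b hb hbc n hn hd x y hx hy => ?_⟩
  have hd1 := hd.trans (min_le_left _ _)
  have hd2 := hd.trans (min_le_right _ _)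
  rw [← hc] at hd1 hd2 hbc ⊢
  have hn' : (1 : ℝ) ≤ n := by exact_mod_cast hn
  have hl : 0 ≤ Real.log n := Real.log_nonneg hn'
  have key : ∀ x : ℤ × ℤ, 2 * max |x.1| |x.2| ≤ (n : ℤ) → x ∈ bx 0 n := by
    intro x hx
    rw [mem_bx0]
    have h1 : |x.1| ≤ max |x.1| |x.2| := le_max_left _ _
    have h2 : |x.2| ≤ max |x.1| |x.2| := le_max_right _ _
    have h3 := abs_le.1 (le_refl |x.1|)
    have h4 := abs_le.1 (le_refl |x.2|)
    omega
  have ebox : bx 0 n = Finset.Icc (-(n : ℤ), -(n : ℤ)) ((n : ℤ), (n : ℤ)) := by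
    unfold bx
    rw [zero_add, zero_sub]
    rfl
  obtain ⟨q, hq⟩ : ∃ q : ℝ, q = (c - b) / c := ⟨_, rfl⟩
  have hq0 : 0 ≤ q := by rw [hq]; exact div_nonneg (by linarith) hc0.le
  have hcard : ((bd (bx 0 n)).card : ℝ) ≤ 32 * (n : ℝ) ^ 2 := by
    refine (card_bd n).trans ?_
    nlinarith
  have hqN : q * ((bd (bx 0 n)).card : ℝ) ≤ 32 * ((c - b) * (n : ℝ) ^ 2) / c := by
    refine (mul_le_mul_of_nonneg_left hcard hq0).trans (le_of_eq ?_)
    rw [hq]
    ring
  have hs : q * ((bd (bx 0 n)).card * (1 + 3 * c)) ≤ 1 / 2 := by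
    rw [← mul_assoc]
    have h1 : 32 * ((c - b) * (n : ℝ) ^ 2) / c ≤ 32 * (c / (64 * (1 + 3 * c))) / c := by
      gcongr
    have h2 : 32 * (c / (64 * (1 + 3 * c))) / c * (1 + 3 * c) = 1 / 2 := by
      field_simp
      norm_num
    calc q * ((bd (bx 0 n)).card : ℝ) * (1 + 3 * c) ≤
          32 * (c / (64 * (1 + 3 * c))) / c * (1 + 3 * c) :=
        mul_le_mul_of_nonneg_right (hqN.trans h1) (by positivity)
      _ = _ := h2
  have h1 := E_lip (U := bx 0 n) hc0 hb.le hbc (key x hx) (key y hy)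
    (A := K * (1 + Real.log n)) (by positivity) (hfl n hn x (key x hx)) (hfl n hn y (key y hy))
    hq hs
  rw [← hM] at h1
  have h2 : q * (bd (bx 0 n)).card * (K * (1 + Real.log n)) * M ≤ ε / 2 * (1 + Real.log n) := by
    have h3 : 32 * ((c - b) * (n : ℝ) ^ 2) / c ≤ 32 * (ε * c / (64 * (K * M))) / c := by
      gcongr
    have h4 : 32 * (ε * c / (64 * (K * M))) / c * (K * (1 + Real.log n)) * M =
        ε / 2 * (1 + Real.log n) := by
      field_simp
      ring
    rw [← h4]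
    have h5 : q * ((bd (bx 0 n)).card : ℝ) ≤ 32 * (ε * c / (64 * (K * M))) / c := hqN.trans h3
    gcongr
  have h3 := hC0 n hn x y hx hy
  rw [← hc, ← ebox, hMean_eq hc0.le] at h3
  rw [← ebox, hMean_eq hb.le]
  have h4 := abs_sub_le (E b (bx 0 n) fun h => (h x : ℝ) * h y)
    (E c (bx 0 n) fun h => (h x : ℝ) * h y)
    (helicity c / (2 * Real.pi) *
      Real.log (n / (max 1 ((max |(x - y).1| |(x - y).2| : ℤ) : ℝ))))
  linarith

end Vale.Agent.P159.T1.S.H172.Win
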