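import Vale.Agent.P159.T1.S.H172.Win3
import Vale.Agent.P159.T1.S.H530.RHn

/-!
P159: the joint law of the heights in the near-critical window.
-/

open Filter Topology

namespace Vale.Agent.P159.T1.S.H172.Win

open Vale.Agent.P159 Vale.Agent.P159.T1.D Vale.Agent.P159.T1.S.Hv
open Vale.Agent.P159.T1.S.Hv.H530 (cL cL_self cL_div mgf_eq bil_sum sum_sum_le joint_box')

/-- the hyperbolic moments increase with the couplings -/
theorem FF_mono_cosh {J J' : Bnd → ℝ} {S : Finset Bnd} {U : Finset Z2} (hJ : ∀ e, 0 ≤ J e)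
    (hJJ : ∀ e, J e ≤ J' e) (hS : ∀ f ∈ U, (f, true) ∈ S) (ρ : Z2 → ℝ) :
    (H910.FF J S U fun h => Real.cosh (ch U ρ h)) * (H910.FF J' S U fun _ => 1) ≤
      (H910.FF J' S U fun h => Real.cosh (ch U ρ h)) * H910.FF J S U fun _ => 1 := by
  have h1 := H910.mono_cosh_J (H910.conn_g hS) (J := fun e : {e : Bnd // e ∈ S} => J e.1)
    (J' := fun e => J' e.1) (fun e => hJ e.1) (fun e => hJJ e.1)
    (H910.pinF_nonempty (Finset.Subset.refl U)) (H910.liC U ρ)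
  rwa [H910.ZZ_ch (Finset.Subset.refl U) ρ Real.cosh, H910.ZZ_ch (Finset.Subset.refl U) ρ Real.cosh,
    H910.ZZ_one (Finset.Subset.refl U), H910.ZZ_one (Finset.Subset.refl U)] at h1

/-- **exponential moments increase with the inverse temperature** -/
theorem mgf_mono_b {b b' : ℝ} (hb : 0 ≤ b) (hbb : b ≤ b') (U : Finset Z2) (B : Bnd → ℝ) :
    ZB b U 0 B / Z b U ≤ ZB b' U 0 B / Z b' U := by
  have hb' : 0 ≤ b' := hb.trans hbb
  rw [div_le_div_iff₀ (H910.Z_pos hb U) (H910.Z_pos hb' U), H910.ZB_eq_dv, H910.ZB_eq_dv,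
    H910.Zρ_eq, H910.Zρ_eq, H910.Z_eq, H910.Z_eq,
    H910.FF_exp_cosh (fun _ => hb) H910.bd_side, H910.FF_exp_cosh (fun _ => hb') H910.bd_side]
  exact FF_mono_cosh (fun _ => hb) (fun _ => hbb) H910.bd_side _

/-- **The joint law of the heights in the near-critical window**: the exponential moments are
Gaussian, uniformly in the temperature and in the number of faces. -/
theorem joint_win (ε : ℝ) (hε : 0 < ε) : ∃ η d C : ℝ, 0 < η ∧ 0 < d ∧ ∀ b : ℝ, 0 < b →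
    b ≤ bCrit → ∀ n : ℕ, 1 ≤ n → (bCrit - b) * (n : ℝ) ^ 2 ≤ d →
      ∀ (T : Finset (ℤ × ℤ)) (z : ℤ × ℤ → ℝ),
      (∀ x ∈ T, 2 * max |x.1| |x.2| ≤ (n : ℤ)) → ∑ x ∈ T, |z x| ≤ η →
      |Real.log (hMean b (Finset.Icc (-(n : ℤ), -(n : ℤ)) ((n : ℤ), (n : ℤ)))
          (fun h => Real.exp (∑ x ∈ T, z x * (h x : ℝ)))) -
        1 / 2 * ∑ x ∈ T, ∑ y ∈ T, z x * z y * (helicity bCrit / (2 * Real.pi) *
          Real.log (n / (max 1 ((max |(x - y).1| |(x - y).2| : ℤ) : ℝ))))| ≤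
        (∑ x ∈ T, |z x|) ^ 2 * (ε * Real.log n + C) := by
  have hc0 : 0 < bCrit := (T1.H934.pos_of_ge bCrit le_rfl).1
  obtain ⟨η, C1, hη, H1⟩ := joint_box' bCrit le_rfl ε hε
  obtain ⟨d, hd0, C2, H2⟩ := cov_win ε hε
  refine ⟨η, d, |C1| + |C2|, hη, hd0, fun b hb hbc n hn hd T z hT hz => ?_⟩
  have hn' : (1 : ℝ) ≤ n := by exact_mod_cast hn
  have hl : 0 ≤ Real.log n := Real.log_nonneg hn'
  have ebox : bx 0 n = Finset.Icc (-(n : ℤ), -(n : ℤ)) ((n : ℤ), (n : ℤ)) := by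
    unfold bx
    rw [zero_add, zero_sub]
    rfl
  have key : ∀ x ∈ T, x ∈ bx 0 n := by
    intro x hx
    have hx2 := hT x hx
    rw [mem_bx0]
    have h1 : |x.1| ≤ max |x.1| |x.2| := le_max_left _ _
    have h2 : |x.2| ≤ max |x.1| |x.2| := le_max_right _ _
    have h3 := abs_le.1 (le_refl |x.1|)
    have h4 := abs_le.1 (le_refl |x.2|)
    omega
  have hup := H1 n hn T z hT hz
  obtain ⟨W, hW⟩ : ∃ W : ℝ, W = ∑ x ∈ T, |z x| := ⟨_, rfl⟩
  obtain ⟨G, hG⟩ : ∃ G : ℝ, G = ∑ x ∈ T, ∑ y ∈ T, z x * z y * (helicity bCrit / (2 * Real.pi) *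
    Real.log (n / (max 1 ((max |(x - y).1| |(x - y).2| : ℤ) : ℝ)))) := ⟨_, rfl⟩
  obtain ⟨v, hv⟩ : ∃ v : Z2 → Bnd → ℝ, v = fun x => H469.lft (bx 0 n) (dl x) := ⟨_, rfl⟩
  have hdiv : ∀ x ∈ T, IsDiv (bx 0 n) (v x) (dl x) := fun x _ => by
    rw [hv]; exact H469.isDiv_lft (bx 0 n) (dl x)
  obtain ⟨B, hB⟩ : ∃ B : Bnd → ℝ, B = ∑ x ∈ T, z x • v x := ⟨_, rfl⟩
  rw [← ebox, hMean_eq hb.le, mgf_eq T z v key hdiv, ← hB, ← hG, ← hW]
  rw [← ebox, hMean_eq hc0.le, mgf_eq T z v key hdiv, ← hB, ← hG, ← hW] at hup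
  -- the variance
  have k3 : |Vr b (bx 0 n) B - G| ≤ W ^ 2 * (ε * Real.log n + C2) := by
    rw [← cL_self hb.le, hB, bil_sum, hG, hW, ← Finset.sum_sub_distrib]
    have e1 : ∀ x ∈ T, (∑ y ∈ T, z x * z y * cL hb.le (bx 0 n) (v x) (v y)) -
        (∑ y ∈ T, z x * z y * (helicity bCrit / (2 * Real.pi) *
          Real.log (n / (max 1 ((max |(x - y).1| |(x - y).2| : ℤ) : ℝ))))) =
        ∑ y ∈ T, z x * z y * (cL hb.le (bx 0 n) (v x) (v y) -
          helicity bCrit / (2 * Real.pi) *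
          Real.log (n / (max 1 ((max |(x - y).1| |(x - y).2| : ℤ) : ℝ)))) := by
      intro x _
      rw [← Finset.sum_sub_distrib]
      refine Finset.sum_congr rfl fun y _ => ?_
      ring
    rw [Finset.sum_congr rfl e1]
    refine sum_sum_le T z _ fun x hx y hy => ?_
    rw [cL_div hb.le (key x hx) (key y hy) (hdiv x hx) (hdiv y hy)]
    have h := H2 b hb hbc n hn hd x y (hT x hx) (hT y hy)
    rw [← ebox, hMean_eq hb.le] at h
    exact h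
  have k6 : Real.exp (Vr b (bx 0 n) B / 2) ≤ ZB b (bx 0 n) 0 B / Z b (bx 0 n) := by
    rw [le_div_iff₀ (H910.Z_pos hb.le _)]
    exact H910.exp_Vr_le hb.le (bx 0 n) B
  have hpos : 0 < ZB b (bx 0 n) 0 B / Z b (bx 0 n) := (Real.exp_pos _).trans_le k6
  have k8 := (Real.le_log_iff_exp_le hpos).2 k6
  have k9 := Real.log_le_log hpos (mgf_mono_b hb.le hbc (bx 0 n) B)
  obtain ⟨k14, _⟩ := abs_le.1 k3
  obtain ⟨_, k15⟩ := abs_le.1 hup
  have hW2 : 0 ≤ W ^ 2 := sq_nonneg W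
  have m1 : 0 ≤ W ^ 2 * (ε * Real.log n) := by positivity
  have m2 : 0 ≤ W ^ 2 * |C2| := by positivity
  have m3 : 0 ≤ W ^ 2 * |C1| := by positivity
  have m4 : W ^ 2 * C1 ≤ W ^ 2 * |C1| := mul_le_mul_of_nonneg_left (le_abs_self _) hW2
  have m5 : W ^ 2 * C2 ≤ W ^ 2 * |C2| := mul_le_mul_of_nonneg_left (le_abs_self _) hW2
  rw [mul_add] at k14 k15
  rw [mul_add, mul_add, abs_le]
  constructor
  · linarith
  · linarith

end Vale.Agent.P159.T1.S.H172.Win
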