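import Vale.Agent.P159.T1.S.H172.Win4
import Vale.Agent.P159.T1.S.H897.Loc

/-!
P159: the height differences in the near-critical window, uniformly in the domain.
-/

open Filter Topology

namespace Vale.Agent.P159.T1.S.H172.Win

open Vale.Agent.P159 Vale.Agent.P159.T1.D Vale.Agent.P159.T1.S.Hv
open Vale.Agent.P159.T1.S.Hv.H530 (cL cL_self cL_div mgf_eq bil_sum sum_sum_le joint_neutral' dd_pos
  dd_self E_one)

/-- flows of logarithmic energy in general domains -/
theorem flow_of : ∃ K : ℝ, 0 < K ∧ ∀ n : ℕ, 1 ≤ n → ∀ (x : Z2) (U : Finset Z2),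
    (∀ f ∈ U, f - x ∈ bx 0 (2 * n)) → Flow U x (K * (1 + Real.log n)) := by
  classical
  have hp := Real.pi_pos
  obtain ⟨K1, hK1⟩ : ∃ K1 : ℝ, K1 = (1 / (4 * Real.pi ^ 2)) * ((1 + 1) * (2 * Real.pi *
    Real.log 9 + (4 * Real.pi + 32)) + (1 + 1 / 1) * 1152) := ⟨_, rfl⟩
  have h9 : 0 < Real.log 9 := Real.log_pos (by norm_num)
  have hK1p : 0 < K1 := by rw [hK1]; positivity
  refine ⟨K1 + 1 / Real.pi, by positivity, fun n hn x U hU => ?_⟩
  have hn' : (1 : ℝ) ≤ n := by exact_mod_cast hn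
  have hl : 0 ≤ Real.log n := Real.log_nonneg hn'
  refine ⟨fun e => Hv.Bf (2 * n) (sh (-x) e), fun f hf => ?_, ?_⟩
  · have h1 := Bf_isDiv (2 * n) (f - x) (hU f hf)
    have e1 : sh (-x) (f, false) = (f - x, false) := by
      unfold sh; rw [sub_eq_add_neg]
    have e2 : sh (-x) ((f.1, f.2 + 1), false) = (((f - x).1, (f - x).2 + 1), false) := by
      unfold sh
      refine Prod.ext (Prod.ext ?_ ?_) rfl <;> simp <;> ring
    have e3 : sh (-x) ((f.1 + 1, f.2), true) = (((f - x).1 + 1, (f - x).2), true) := by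
      unfold sh
      refine Prod.ext (Prod.ext ?_ ?_) rfl <;> simp <;> ring
    have e4 : sh (-x) (f, true) = (f - x, true) := by
      unfold sh; rw [sub_eq_add_neg]
    simp only [e1, e2, e3, e4]
    rw [h1]
    unfold dl
    by_cases h : f = x
    · rw [if_pos h, if_pos (by rw [h, sub_self])]
    · rw [if_neg h, if_neg (sub_ne_zero.2 h)]
  · have hinj : Function.Injective (sh (-x)) := by
      intro e e' h
      unfold sh at h
      have h1 := congrArg Prod.fst h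
      have h2 := congrArg Prod.snd h
      simp only at h1 h2
      exact Prod.ext (add_right_cancel h1) h2
    have h1 : ∑ e ∈ bd U, Hv.Bf (2 * n) (sh (-x) e) ^ 2 ≤
        ∑ e ∈ SP (2 * (2 * n)), Hv.Bf (2 * n) e ^ 2 := by
      rw [← Finset.sum_image (s := bd U) (g := sh (-x)) (f := fun e => Hv.Bf (2 * n) e ^ 2)
        (fun e _ e' _ h => hinj h)]
      have h2 : ∑ e ∈ SP (2 * (2 * n)) ∪ (bd U).image (sh (-x)), Hv.Bf (2 * n) e ^ 2 =
          ∑ e ∈ SP (2 * (2 * n)), Hv.Bf (2 * n) e ^ 2 := by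
        symm
        refine Finset.sum_subset Finset.subset_union_left fun e _ he => ?_
        rw [Bf_off he]
        simp
      rw [← h2]
      exact Finset.sum_le_sum_of_subset_of_nonneg Finset.subset_union_right
        fun e _ _ => sq_nonneg _
    refine h1.trans ((Bf_energy (n := 2 * n) one_pos).trans ?_)
    have h3 : Real.log (4 * ((2 * n : ℕ) : ℝ) + 1) ≤ Real.log 9 + Real.log n := by
      rw [← Real.log_mul (by norm_num) (by positivity)]
      refine Real.log_le_log (by positivity) ?_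
      push_cast
      linarith
    have h4 : (1 / (4 * Real.pi ^ 2)) * ((1 + 1) * (2 * Real.pi *
        Real.log (4 * ((2 * n : ℕ) : ℝ) + 1) + (4 * Real.pi + 32)) + (1 + 1 / 1) * 1152) ≤
        (1 / (4 * Real.pi ^ 2)) * ((1 + 1) * (2 * Real.pi *
        (Real.log 9 + Real.log n) + (4 * Real.pi + 32)) + (1 + 1 / 1) * 1152) := by
      refine mul_le_mul_of_nonneg_left ?_ (by positivity)
      have := mul_le_mul_of_nonneg_left h3 (by positivity : 0 ≤ 2 * Real.pi)
      linarith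
    have h5 : (1 / (4 * Real.pi ^ 2)) * ((1 + 1) * (2 * Real.pi *
        (Real.log 9 + Real.log n) + (4 * Real.pi + 32)) + (1 + 1 / 1) * 1152) =
        K1 + 1 / Real.pi * Real.log n := by
      rw [hK1]
      field_simp
      ring
    rw [h5] at h4
    refine h4.trans ?_
    have h6 : 0 ≤ K1 * Real.log n := by positivity
    have h7 : 0 ≤ 1 / Real.pi := by positivity
    nlinarith

lemma card_bd_le (U : Finset Z2) : (bd U).card ≤ U.card * 4 := by
  unfold bd
  refine Finset.card_biUnion_le_card_mul _ _ _ fun f _ => ?_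
  unfold sides
  exact Finset.card_le_four

lemma card_bx' (c : Z2) (m : ℕ) : ((bx c m).card : ℝ) = (2 * m + 1) ^ 2 := by
  have h := bx_map 0 c m
  rw [zero_add] at h
  rw [← h, Finset.card_map, card_bx]

/-- second moments and covariances -/
lemma v2_cov {b : ℝ} (hb : 0 ≤ b) {U : Finset Z2} {x y : Z2} (hx : x ∈ U) (hy : y ∈ U) :
    v2 b U x y = (E b U fun h => (h x : ℝ) * h x) + (E b U fun h => (h y : ℝ) * h y) -
      2 * E b U fun h => (h x : ℝ) * h y := by
  rw [cov_polar hb hx hy]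
  have e : ∀ x : Z2, (E b U fun h => (h x : ℝ) * h x) = hv b U x := by
    intro x
    unfold hv
    congr 1
    funext h
    ring
  rw [e, e]
  ring

/-- the mean square height difference increases with the domain -/
lemma v2_mono_U {b : ℝ} (hb : 0 ≤ b) {U W : Finset Z2} (h : W ⊆ U) {x y : Z2} (hx : x ∈ W)
    (hy : y ∈ W) : v2 b W x y ≤ v2 b U x y := by
  rw [v2_eq hx hy, v2_eq (h hx) (h hy)]
  exact V_mono hb h _

/-- **The mean square height differences in the near-critical window**, uniformly in the domain -/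
theorem v2_win (ε : ℝ) (hε : 0 < ε) : ∃ d C : ℝ, 0 < d ∧ ∀ b : ℝ, 0 < b → b ≤ bCrit →
    ∀ x y : Z2, x ≠ y → (bCrit - b) * (dd x y : ℝ) ^ 2 ≤ d → ∀ U : Finset Z2,
      bx x (dd x y / 2) ⊆ U → bx y (dd x y / 2) ⊆ U →
      |v2 b U x y - helicity bCrit / Real.pi * Real.log (dd x y)| ≤
        ε * Real.log (dd x y) + C := by
  classical
  obtain ⟨c, hc⟩ : ∃ c : ℝ, c = bCrit := ⟨_, rfl⟩
  have hc0 : 0 < c := by rw [hc]; exact (T1.H934.pos_of_ge bCrit le_rfl).1
  obtain ⟨K, hK, hfl⟩ := flow_of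
  obtain ⟨C0, hC0⟩ := height_diff2 bCrit le_rfl (ε / 2) (half_pos hε)
  obtain ⟨M, hM⟩ : ∃ M : ℝ, M = 4 * c + 14 * c ^ 2 + K4 c := ⟨_, rfl⟩
  have hM0 : 0 < M := by
    rw [hM]
    unfold K4
    positivity
  refine ⟨min (c / (64 * (1 + 3 * c))) (ε * c / (256 * (K * M))), C0 + ε / 2, lt_min (by positivity)
    (by positivity), fun b hb hbc x y hxy hd U hUx hUy => ?_⟩
  have hd1 := hd.trans (min_le_left _ _)
  have hd2 := hd.trans (min_le_right _ _)
  rw [← hc] at hd1 hd2 hbc ⊢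
  obtain ⟨n, hn⟩ : ∃ n : ℕ, n = dd x y := ⟨_, rfl⟩
  have hn1 : 1 ≤ n := by rw [hn]; exact dd_pos hxy
  have hn' : (1 : ℝ) ≤ n := by exact_mod_cast hn1
  have hl : 0 ≤ Real.log n := Real.log_nonneg hn'
  rw [← hn] at hd1 hd2 hUx hUy ⊢
  have hdist : |x.1 - y.1| ≤ n ∧ |x.2 - y.2| ≤ n := by
    rw [hn]
    unfold dd
    rw [Int.abs_eq_natAbs, Int.abs_eq_natAbs]
    omega
  obtain ⟨d1, d2⟩ := hdist
  rw [abs_le] at d1 d2
  obtain ⟨W, hW⟩ : ∃ W : Finset Z2, W = bx x (n / 2) ∪ bx y (n / 2) := ⟨_, rfl⟩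
  have hxW : x ∈ W := by
    rw [hW]; refine Finset.mem_union_left _ ?_
    rw [mem_bx]; omega
  have hyW : y ∈ W := by
    rw [hW]; refine Finset.mem_union_right _ ?_
    rw [mem_bx]; omega
  have hWU : W ⊆ U := by rw [hW]; exact Finset.union_subset hUx hUy
  have memW : ∀ f ∈ W, (-(n : ℤ) ≤ f.1 - x.1 ∧ f.1 - x.1 ≤ n) ∧
      (-(n : ℤ) ≤ f.2 - x.2 ∧ f.2 - x.2 ≤ n) ∨ (-(n : ℤ) ≤ f.1 - y.1 ∧ f.1 - y.1 ≤ n) ∧
      (-(n : ℤ) ≤ f.2 - y.2 ∧ f.2 - y.2 ≤ n) := by
    intro f hf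
    rw [hW, Finset.mem_union, mem_bx, mem_bx] at hf
    omega
  have fx : Flow W x (K * (1 + Real.log n)) := hfl n hn1 x W fun f hf => by
    have := memW f hf
    rw [mem_bx0]
    simp only [Prod.fst_sub, Prod.snd_sub]
    push_cast
    omega
  have fy : Flow W y (K * (1 + Real.log n)) := hfl n hn1 y W fun f hf => by
    have := memW f hf
    rw [mem_bx0]
    simp only [Prod.fst_sub, Prod.snd_sub]
    push_cast
    omega
  have hcard : ((bd W).card : ℝ) ≤ 32 * (n : ℝ) ^ 2 := by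
    have h1 : ((bd W).card : ℝ) ≤ ((W.card * 4 : ℕ) : ℝ) := by exact_mod_cast card_bd_le W
    have h2 : (W.card : ℝ) ≤ ((bx x (n / 2)).card + (bx y (n / 2)).card : ℕ) := by
      rw [hW]; exact_mod_cast Finset.card_union_le _ _
    push_cast at h1 h2
    rw [card_bx', card_bx'] at h2
    have h3 : (((n / 2 : ℕ) : ℕ) : ℝ) ≤ n / 2 := Nat.cast_div_le
    have h4 : (0 : ℝ) ≤ ((n / 2 : ℕ) : ℝ) := Nat.cast_nonneg _
    have h5 : (2 * ((n / 2 : ℕ) : ℝ) + 1) ^ 2 ≤ (2 * (n : ℝ)) ^ 2 := by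
      refine pow_le_pow_left₀ (by positivity) ?_ 2
      linarith
    nlinarith
  obtain ⟨q, hq⟩ : ∃ q : ℝ, q = (c - b) / c := ⟨_, rfl⟩
  have hq0 : 0 ≤ q := by rw [hq]; exact div_nonneg (by linarith) hc0.le
  have hqN : q * ((bd W).card : ℝ) ≤ 32 * ((c - b) * (n : ℝ) ^ 2) / c := by
    refine (mul_le_mul_of_nonneg_left hcard hq0).trans (le_of_eq ?_)
    rw [hq]
    ring
  have hs : q * ((bd W).card * (1 + 3 * c)) ≤ 1 / 2 := by
    rw [← mul_assoc]
    have h1 : 32 * ((c - b) * (n : ℝ) ^ 2) / c ≤ 32 * (c / (64 * (1 + 3 * c))) / c := by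
      gcongr
    have h2 : 32 * (c / (64 * (1 + 3 * c))) / c * (1 + 3 * c) = 1 / 2 := by
      field_simp
      norm_num
    calc q * ((bd W).card : ℝ) * (1 + 3 * c) ≤
          32 * (c / (64 * (1 + 3 * c))) / c * (1 + 3 * c) :=
        mul_le_mul_of_nonneg_right (hqN.trans h1) (by positivity)
      _ = _ := h2
  obtain ⟨L, hL⟩ : ∃ L : ℝ, L = q * (bd W).card * (K * (1 + Real.log n)) * M := ⟨_, rfl⟩
  have hA : 0 < K * (1 + Real.log n) := by positivity
  have hxx := E_lip (U := W) hc0 hb.le hbc hxW hxW hA fx fx hq hs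
  have hyy := E_lip (U := W) hc0 hb.le hbc hyW hyW hA fy fy hq hs
  have hxy' := E_lip (U := W) hc0 hb.le hbc hxW hyW hA fx fy hq hs
  rw [← hM, ← hL] at hxx hyy hxy'
  have h2 : L ≤ ε / 8 * (1 + Real.log n) := by
    have h3 : 32 * ((c - b) * (n : ℝ) ^ 2) / c ≤ 32 * (ε * c / (256 * (K * M))) / c := by
      gcongr
    have h4 : 32 * (ε * c / (256 * (K * M))) / c * (K * (1 + Real.log n)) * M =
        ε / 8 * (1 + Real.log n) := by
      field_simp
      ring
    rw [← h4, hL]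
    have h5 : q * ((bd W).card : ℝ) ≤ 32 * (ε * c / (256 * (K * M))) / c := hqN.trans h3
    gcongr
  have lo : v2 c W x y - 4 * L ≤ v2 b W x y := by
    rw [v2_cov hc0.le hxW hyW, v2_cov hb.le hxW hyW]
    have a1 := (abs_le.1 hxx).1
    have a2 := (abs_le.1 hyy).1
    have a3 := (abs_le.1 hxy').2
    linarith
  have up : v2 b U x y ≤ v2 c U x y := H897.v2_mono_b hb.le hbc (hWU hxW) (hWU hyW)
  have mo : v2 b W x y ≤ v2 b U x y := v2_mono_U hb.le hWU hxW hyW
  have c1 := hC0 x y hxy U (by rw [← hn]; exact hUx) (by rw [← hn]; exact hUy)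
  have c2 := hC0 x y hxy W (by rw [← hn, hW]; exact Finset.subset_union_left)
    (by rw [← hn, hW]; exact Finset.subset_union_right)
  rw [← hc, ← hn] at c1 c2
  have c3 := (abs_le.1 c1).2
  have c4 := (abs_le.1 c2).1
  rw [abs_le]
  constructor
  · linarith
  · have : 0 ≤ ε / 2 * (1 + Real.log n) := by positivity
    linarith

end Vale.Agent.P159.T1.S.H172.Win
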