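import Vale.Agent.P159.T1.S.H172.Win5

/-!
P159: neutral combinations of the heights in the near-critical window, in elementary terms.
-/

open Filter Topology

namespace Vale.Agent.P159.T1.S.H172.Win

open Vale.Agent.P159 Vale.Agent.P159.T1.D Vale.Agent.P159.T1.S.Hv
open Vale.Agent.P159.T1.S.Hv.H530 (cL cL_self cL_div mgf_eq bil_sum sum_sum_le joint_neutral' dd_pos
  dd_self E_one)

/-- **The mean square height differences in the near-critical window** -/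
theorem diff_win (ε : ℝ) (hε : 0 < ε) : ∃ d C : ℝ, 0 < d ∧ ∀ b : ℝ, 0 < b → b ≤ bCrit →
    ∀ x y : ℤ × ℤ, x ≠ y →
      (bCrit - b) * ((max |(x - y).1| |(x - y).2| : ℤ) : ℝ) ^ 2 ≤ d → ∀ U : Finset (ℤ × ℤ),
      (∀ z : ℤ × ℤ, 2 * max |(z - x).1| |(z - x).2| ≤ max |(x - y).1| |(x - y).2| ∨
        2 * max |(z - y).1| |(z - y).2| ≤ max |(x - y).1| |(x - y).2| → z ∈ U) →
      |hMean b U (fun h => ((h x : ℝ) - h y) ^ 2) -
        helicity bCrit / Real.pi * Real.log ((max |(x - y).1| |(x - y).2| : ℤ) : ℝ)| ≤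
        ε * Real.log ((max |(x - y).1| |(x - y).2| : ℤ) : ℝ) + C := by
  obtain ⟨d, C, hd0, hC⟩ := v2_win ε hε
  refine ⟨d, C, hd0, fun b hb hbc x y hxy hd U hU => ?_⟩
  have hd' := dd_cast x y
  have he : ((max |(x - y).1| |(x - y).2| : ℤ) : ℝ) = (dd x y : ℝ) := by
    rw [hd', Int.cast_natCast]
  have key : ∀ w : ℤ × ℤ, (∀ z : ℤ × ℤ, 2 * max |(z - w).1| |(z - w).2| ≤
      max |(x - y).1| |(x - y).2| → z ∈ U) → bx w (dd x y / 2) ⊆ U := by
    intro w hw z hz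
    refine hw z ?_
    rw [mem_bx] at hz
    rw [hd']
    simp only [Prod.fst_sub, Prod.snd_sub]
    have h1 : |z.1 - w.1| ≤ ((dd x y / 2 : ℕ) : ℤ) := abs_le.2 hz.1
    have h2 : |z.2 - w.2| ≤ ((dd x y / 2 : ℕ) : ℤ) := abs_le.2 hz.2
    have h3 : max |z.1 - w.1| |z.2 - w.2| ≤ ((dd x y / 2 : ℕ) : ℤ) := max_le h1 h2
    omega
  rw [he] at hd ⊢
  rw [hMean_eq hb.le]
  exact hC b hb hbc x y hxy hd U (key x fun z hz => hU z (Or.inl hz))
    (key y fun z hz => hU z (Or.inr hz))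

/-- **Neutral combinations of the heights in the near-critical window**: the exponential moments
are Gaussian, uniformly in the temperature, the domain and the number of faces -/
theorem neutral_win (ε : ℝ) (hε : 0 < ε) : ∃ η d C : ℝ, 0 < η ∧ 0 < d ∧ ∀ b : ℝ, 0 < b →
    b ≤ bCrit → ∀ R : ℕ, 1 ≤ R → (bCrit - b) * (R : ℝ) ^ 2 ≤ d →
      ∀ (T : Finset (ℤ × ℤ)) (z : ℤ × ℤ → ℝ),
      (∀ x ∈ T, ∀ y ∈ T, max |(x - y).1| |(x - y).2| ≤ (R : ℤ)) →
      ∑ x ∈ T, z x = 0 → ∑ x ∈ T, |z x| ≤ η → ∀ U : Finset (ℤ × ℤ),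
      (∀ u : ℤ × ℤ, (∃ x ∈ T, 2 * max |(u - x).1| |(u - x).2| ≤ (R : ℤ)) → u ∈ U) →
      |Real.log (hMean b U (fun h => Real.exp (∑ x ∈ T, z x * (h x : ℝ)))) +
        1 / 2 * ∑ x ∈ T, ∑ y ∈ T, z x * z y * (helicity bCrit / (2 * Real.pi) *
          Real.log (max 1 ((max |(x - y).1| |(x - y).2| : ℤ) : ℝ)))| ≤
        (∑ x ∈ T, |z x|) ^ 2 * (ε * Real.log R + C) := by
  have hp := Real.pi_pos
  have hc0 : 0 < bCrit := (T1.H934.pos_of_ge bCrit le_rfl).1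
  obtain ⟨η, C1, hη, H1⟩ := joint_neutral' bCrit le_rfl ε hε
  obtain ⟨d, C2, hd0, H2⟩ := v2_win ε hε
  obtain ⟨Y, hY⟩ : ∃ Y : ℝ, Y = helicity bCrit := ⟨_, rfl⟩
  rw [← hY] at H1 H2 ⊢
  refine ⟨η, d, |C1| + |C2|, hη, hd0, fun b hb hbc R hR hd T z hT hz0 hz U hU => ?_⟩
  have hR' : (1 : ℝ) ≤ R := by exact_mod_cast hR
  have hlog : 0 ≤ Real.log R := Real.log_nonneg hR'
  have hup := H1 R hR T z hT hz0 hz U hU
  have e : ∀ x y : ℤ × ℤ, ((max |(x - y).1| |(x - y).2| : ℤ) : ℝ) = (dd x y : ℝ) := fun x y => by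
    rw [dd_cast, Int.cast_natCast]
  simp only [e] at hup ⊢
  have hs : ∀ x ∈ T, ∀ y ∈ T, dd x y ≤ R := fun x hx y hy => by
    have h := hT x hx y hy
    rw [dd_cast] at h
    exact_mod_cast h
  have hbx : ∀ x ∈ T, bx x (R / 2) ⊆ U := fun x hx u hu => by
    refine hU u ⟨x, hx, ?_⟩
    rw [mem_bx] at hu
    simp only [Prod.fst_sub, Prod.snd_sub]
    have h1 : |u.1 - x.1| ≤ ((R / 2 : ℕ) : ℤ) := abs_le.2 hu.1
    have h2 : |u.2 - x.2| ≤ ((R / 2 : ℕ) : ℤ) := abs_le.2 hu.2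
    have h3 : max |u.1 - x.1| |u.2 - x.2| ≤ ((R / 2 : ℕ) : ℤ) := max_le h1 h2
    omega
  have hsU : ∀ x ∈ T, x ∈ U := fun x hx => hbx x hx (by rw [mem_bx]; omega)
  have hv2 : ∀ x ∈ T, ∀ y ∈ T, x ≠ y →
      |v2 b U x y - Y / Real.pi * Real.log (dd x y)| ≤ ε * Real.log (dd x y) + C2 := by
    intro x hx y hy hxy
    have h1 : dd x y / 2 ≤ R / 2 := Nat.div_le_div_right (hs x hx y hy)
    refine H2 b hb hbc x y hxy ?_ U ((bx_mono h1).trans (hbx x hx)) ((bx_mono h1).trans (hbx y hy))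
    refine le_trans ?_ hd
    have h2 : (dd x y : ℝ) ≤ R := by exact_mod_cast hs x hx y hy
    exact mul_le_mul_of_nonneg_left (pow_le_pow_left₀ (Nat.cast_nonneg _) h2 2) (by linarith)
  obtain ⟨W, hW⟩ : ∃ W : ℝ, W = ∑ x ∈ T, |z x| := ⟨_, rfl⟩
  obtain ⟨G, hG⟩ : ∃ G : ℝ, G = ∑ x ∈ T, ∑ y ∈ T, z x * z y *
    (Y / (2 * Real.pi) * Real.log (max 1 (dd x y : ℝ))) := ⟨_, rfl⟩
  obtain ⟨v, hvv⟩ : ∃ v : Z2 → Bnd → ℝ, v = fun x => H469.lft U (dl x) := ⟨_, rfl⟩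
  have hdiv : ∀ x ∈ T, IsDiv U (v x) (dl x) := fun x _ => by
    rw [hvv]; exact H469.isDiv_lft U (dl x)
  obtain ⟨B, hB⟩ : ∃ B : Bnd → ℝ, B = ∑ x ∈ T, z x • v x := ⟨_, rfl⟩
  rw [hMean_eq hb.le, mgf_eq T z v hsU hdiv, ← hB, ← hG, ← hW]
  rw [hMean_eq hc0.le, mgf_eq T z v hsU hdiv, ← hB, ← hG, ← hW] at hup
  have k3 : |Vr b U B + G| ≤ W ^ 2 * (ε * Real.log R + |C2|) := by
    have e0 : Vr b U B = ∑ x ∈ T, ∑ y ∈ T, z x * z y * (-(v2 b U x y / 2)) := by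
      rw [← cL_self hb.le, hB, bil_sum]
      have e1 : ∀ x ∈ T, ∀ y ∈ T, z x * z y * cL hb.le U (v x) (v y) =
          z x * hv b U x / 2 * z y + z x * (z y * hv b U y / 2) +
            z x * z y * (-(v2 b U x y / 2)) := by
        intro x hx y hy
        rw [cL_div hb.le (hsU x hx) (hsU y hy) (hdiv x hx) (hdiv y hy),
          cov_polar hb.le (hsU x hx) (hsU y hy)]
        ring
      rw [Finset.sum_congr rfl fun x hx => Finset.sum_congr rfl fun y hy => e1 x hx y hy]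
      simp only [Finset.sum_add_distrib]
      have e2 : ∑ x ∈ T, ∑ y ∈ T, z x * hv b U x / 2 * z y = 0 := by
        refine Finset.sum_eq_zero fun x _ => ?_
        rw [← Finset.mul_sum, hz0, mul_zero]
      have e3 : ∑ x ∈ T, ∑ y ∈ T, z x * (z y * hv b U y / 2) = 0 := by
        rw [← Finset.sum_mul_sum, hz0, zero_mul]
      rw [e2, e3, zero_add, zero_add]
    rw [e0, hG, hW, ← Finset.sum_add_distrib]
    have e1 : ∀ x ∈ T, (∑ y ∈ T, z x * z y * (-(v2 b U x y / 2))) +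
        (∑ y ∈ T, z x * z y * (Y / (2 * Real.pi) * Real.log (max 1 (dd x y : ℝ)))) =
        ∑ y ∈ T, z x * z y * (-(v2 b U x y / 2) +
          Y / (2 * Real.pi) * Real.log (max 1 (dd x y : ℝ))) := by
      intro x _
      rw [← Finset.sum_add_distrib]
      refine Finset.sum_congr rfl fun y _ => ?_
      ring
    rw [Finset.sum_congr rfl e1]
    refine sum_sum_le T z _ fun x hx y hy => ?_
    by_cases hxy : x = y
    · subst hxy
      have e2 : v2 b U x x = 0 := by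
        unfold v2 D.E
        simp
      rw [e2, dd_self]
      simp only [Nat.cast_zero, max_eq_left (zero_le_one' ℝ), Real.log_one, mul_zero, zero_div,
        neg_zero, add_zero, abs_zero]
      positivity
    · have h1 := hv2 x hx y hy hxy
      have h2 : (1 : ℝ) ≤ dd x y := by exact_mod_cast dd_pos hxy
      have L0 : 0 ≤ Real.log (dd x y) := Real.log_nonneg h2
      have L1 : Real.log (dd x y) ≤ Real.log R :=
        Real.log_le_log (by linarith) (by exact_mod_cast hs x hx y hy)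
      rw [max_eq_right h2]
      have e2 : -(v2 b U x y / 2) + Y / (2 * Real.pi) * Real.log (dd x y) =
          -(1 / 2) * (v2 b U x y - Y / Real.pi * Real.log (dd x y)) := by
        field_simp
        ring
      rw [e2, abs_mul]
      have e3 : |(-(1 / 2) : ℝ)| = 1 / 2 := by norm_num
      rw [e3]
      have h3 := mul_le_mul_of_nonneg_left L1 hε.le
      have h4 := le_abs_self C2
      have h5 := abs_nonneg (v2 b U x y - Y / Real.pi * Real.log (dd x y))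
      have h6 := abs_nonneg C2
      have h7 : 0 ≤ ε * Real.log R := by positivity
      linarith
  have k6 : Real.exp (Vr b U B / 2) ≤ ZB b U 0 B / Z b U := by
    rw [le_div_iff₀ (H910.Z_pos hb.le _)]
    exact H910.exp_Vr_le hb.le U B
  have hpos : 0 < ZB b U 0 B / Z b U := (Real.exp_pos _).trans_le k6
  have k8 := (Real.le_log_iff_exp_le hpos).2 k6
  have k9 := Real.log_le_log hpos (mgf_mono_b hb.le hbc U B)
  obtain ⟨k14, _⟩ := abs_le.1 k3
  obtain ⟨_, k15⟩ := abs_le.1 hup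
  have hW2 : 0 ≤ W ^ 2 := sq_nonneg W
  have m1 : 0 ≤ W ^ 2 * (ε * Real.log R) := by positivity
  have m2 : 0 ≤ W ^ 2 * |C2| := by positivity
  have m3 : 0 ≤ W ^ 2 * |C1| := by positivity
  have m4 : W ^ 2 * C1 ≤ W ^ 2 * |C1| := mul_le_mul_of_nonneg_left (le_abs_self _) hW2
  rw [mul_add] at k14 k15
  rw [mul_add, mul_add, abs_le]
  constructor
  · linarith
  · linarith

end Vale.Agent.P159.T1.S.H172.Win
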